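import Vale.Agent.P207.H662.Lad

/-!
# P207: Gram form of local `α`-fields on the tower of a divergence free `(2,2)`-vector

Input: the tower `x₀ = h, x₁ = A h, …` and `y_k = B x_{k-1}`, `w_k = A y_k`, `v_k = B y_k` of
helper468 (levels `≤ 6`), as a structure; output: the quadratic form `L1.qf h F G` on the four
dimensional space `F = α₁ X h + α₄ x₃`, `G = α₂ h + α₃ x₂` (helper871's certificate).
-/

noncomputable section

namespace Vale.Agent.P207.H639

open Vale.Agent.P207.H662

variable {W : Type*} [AddCommGroup W] [Module ℝ W]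

section forms

variable {ip : W →ₗ[ℝ] W →ₗ[ℝ] ℝ} {X : W →ₗ[ℝ] W} {κ q : ℝ} (L : Lad1 W ip X κ q)

theorem E_form (f : W) :
    L.E f = (1 / 2 : ℝ) • (X (L.Δ f) - L.Δ (X f) - q • X f) := by
  rw [L.X_Δ]; module

theorem S_form (hX : ∀ f g, ip (X f) g = - ip f (X g)) (f g : W) :
    ip (L.S f) g = ip (L.Δ (X f)) (X g)
      - (1 / 2) * (ip (X (L.Δ f)) (X g) + ip (X f) (X (L.Δ g))) - κ * ip (L.Δ f) g := by
  have h1 : L.S f = X (L.E f) - L.E (X f) - κ • L.Δ f := by rw [L.X_E]; abel
  rw [h1]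
  simp only [map_sub, map_smul, LinearMap.sub_apply, LinearMap.smul_apply, smul_eq_mul, hX,
    L.E_adj, map_add, L.Δ_symm]
  rw [E_form L (X g), E_form L g]
  simp only [map_sub, map_smul, smul_eq_mul]
  ring

end forms

end Vale.Agent.P207.H639
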