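import Vale.Agent.P207.H639.Gram0

/-!
# P207: the joint eigenspaces `(p, q)` and the tower
-/

noncomputable section

namespace Vale.Agent.P207.H639

open Vale.Agent.P207.H662

variable {W : Type*} [AddCommGroup W] [Module ℝ W] (L : Lad W)

/-- the vectors of type `(p, q)`: total degree `p`, leafwise degree `q` -/
def Ty (p q : ℝ) : Submodule ℝ W where
  carrier := {f | L.D f = (p * (p + L.e + L.d - 1)) • f ∧ L.L2.Δ f = (q * (q + L.d - 1)) • f}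
  zero_mem' := by simp
  add_mem' := by
    rintro f g ⟨h1, h2⟩ ⟨h3, h4⟩
    exact ⟨by rw [map_add, h1, h3, smul_add], by rw [map_add, h2, h4, smul_add]⟩
  smul_mem' := by
    rintro c f ⟨h1, h2⟩
    exact ⟨by rw [map_smul, h1, smul_comm], by rw [map_smul, h2, smul_comm]⟩

variable {L}

theorem mem_Ty {p q : ℝ} {f : W} : f ∈ Ty L p q ↔
    L.D f = (p * (p + L.e + L.d - 1)) • f ∧ L.L2.Δ f = (q * (q + L.d - 1)) • f := Iff.rfl

theorem Ty.d2 {p q : ℝ} {f : W} (h : f ∈ Ty L p q) : L.L2.Δ f = (q * (q + L.d - 1)) • f := h.2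

theorem Ty.d1 {p q : ℝ} {f : W} (h : f ∈ Ty L p q) :
    L.L1.Δ f = (p * (p + L.e + L.d - 1) - q * (q + L.d - 1)) • f := by
  have h1 := h.1
  rw [Lad.D_apply, h.2] at h1
  rw [sub_smul, ← h1]; abel

theorem D_symm (f g : W) : L.ip (L.D f) g = L.ip f (L.D g) := by
  rw [Lad.D_apply, Lad.D_apply, map_add, map_add, LinearMap.add_apply, L.L1.Δ_symm, L.L2.Δ_symm]

theorem orth (he : 0 < L.e) (hd : 0 < L.d) {p q p' q' : ℝ} {f g : W} (hf : f ∈ Ty L p q)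
    (hg : g ∈ Ty L p' q') (h : p ≠ p' ∨ q ≠ q') (hp : 1 ≤ p + p') (hq : 1 ≤ q + q') :
    L.ip f g = 0 := by
  rcases h with h | h
  · have h1 := D_symm (L := L) f g
    rw [hf.1, hg.1, map_smul, map_smul, LinearMap.smul_apply, smul_eq_mul, smul_eq_mul] at h1
    have h2 : (p - p') * (p + p' + L.e + L.d - 1) * L.ip f g = 0 := by linear_combination h1
    rcases mul_eq_zero.1 h2 with h3 | h3
    · rcases mul_eq_zero.1 h3 with h4 | h4
      · exact absurd (sub_eq_zero.1 h4) h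
      · exfalso; linarith
    · exact h3
  · have h1 := L.L2.Δ_symm f g
    rw [hf.2, hg.2, map_smul, map_smul, LinearMap.smul_apply, smul_eq_mul, smul_eq_mul] at h1
    have h2 : (q - q') * (q + q' + L.d - 1) * L.ip f g = 0 := by linear_combination h1
    rcases mul_eq_zero.1 h2 with h3 | h3
    · rcases mul_eq_zero.1 h3 with h4 | h4
      · exact absurd (sub_eq_zero.1 h4) h
      · exfalso; linarith
    · exact h3

theorem ip_sum {ι : Type*} [Fintype ι] [DecidableEq ι] (he : 0 < L.e) (hd : 0 < L.d)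
    (p q : ι → ℝ) (hpq : ∀ i j, i ≠ j → (p i ≠ p j ∨ q i ≠ q j) ∧ 1 ≤ p i + p j ∧ 1 ≤ q i + q j)
    (f g : ι → W) (hf : ∀ i, f i ∈ Ty L (p i) (q i)) (hg : ∀ i, g i ∈ Ty L (p i) (q i)) :
    L.ip (∑ i, f i) (∑ i, g i) = ∑ i, L.ip (f i) (g i) := by
  have h0 : L.ip (∑ i, f i) = ∑ i, L.ip (f i) := map_sum L.ip _ _
  rw [h0, LinearMap.sum_apply]
  refine Finset.sum_congr rfl fun i _ => ?_
  rw [map_sum]
  refine Finset.sum_eq_single i (fun j _ hj => ?_) (fun h => absurd (Finset.mem_univ i) h)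
  obtain ⟨h1, h2, h3⟩ := hpq i j (Ne.symm hj)
  exact orth he hd (hf i) (hg j) h1 h2 h3

variable (L)

/-- the tower of a divergence free vector `x₀` of type `(2,2)`, up to level 6 -/
structure Tw where
  (x0 x1 x2 x3 x4 y1 y2 y3 y4 w1 v1 w3 v3 : W)
  (a1 a2 a3 b1 b3 c2 : ℝ)
  X0 : L.X x0 = x1 + y1
  X1 : L.X x1 = x2 + y2 - a1 • x0
  X2 : L.X x2 = x3 + y3 - a2 • x1
  X3 : L.X x3 = x4 + y4 - a3 • x2
  Y1 : L.X y1 = w1 + v1 - b1 • x0
  Y3 : L.X y3 = w3 + v3 - b3 • x2 - c2 • y2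
  tx0 : x0 ∈ Ty L 2 2
  tx1 : x1 ∈ Ty L 3 3
  tx2 : x2 ∈ Ty L 4 4
  tx3 : x3 ∈ Ty L 5 5
  tx4 : x4 ∈ Ty L 6 6
  ty1 : y1 ∈ Ty L 3 1
  ty2 : y2 ∈ Ty L 4 2
  ty3 : y3 ∈ Ty L 5 3
  ty4 : y4 ∈ Ty L 6 4
  tw1 : w1 ∈ Ty L 4 2
  tv1 : v1 ∈ Ty L 4 0
  tw3 : w3 ∈ Ty L 6 4
  tv3 : v3 ∈ Ty L 6 2

namespace Tw

variable {L} (T : Tw L)

/-- even vectors -/
def ev (p0 p2 r2 s2 v2 p4 r4 s4 v4 : ℝ) : W :=
  p0 • T.x0 + p2 • T.x2 + (r2 • T.y2 + s2 • T.w1) + v2 • T.v1 + p4 • T.x4 +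
    (r4 • T.y4 + s4 • T.w3) + v4 • T.v3

/-- odd vectors -/
def od (p1 r1 p3 r3 : ℝ) : W := p1 • T.x1 + r1 • T.y1 + p3 • T.x3 + r3 • T.y3

theorem ip_ev (he : 0 < L.e) (hd : 0 < L.d) (p0 p2 r2 s2 v2 p4 r4 s4 v4 : ℝ)
    (p0' p2' r2' s2' v2' p4' r4' s4' v4' : ℝ) :
    L.ip (T.ev p0 p2 r2 s2 v2 p4 r4 s4 v4) (T.ev p0' p2' r2' s2' v2' p4' r4' s4' v4') =
      p0 * p0' * L.ip T.x0 T.x0 + p2 * p2' * L.ip T.x2 T.x2
      + (r2 * r2' * L.ip T.y2 T.y2 + (r2 * s2' + s2 * r2') * L.ip T.y2 T.w1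
        + s2 * s2' * L.ip T.w1 T.w1)
      + v2 * v2' * L.ip T.v1 T.v1 + p4 * p4' * L.ip T.x4 T.x4
      + (r4 * r4' * L.ip T.y4 T.y4 + (r4 * s4' + s4 * r4') * L.ip T.y4 T.w3
        + s4 * s4' * L.ip T.w3 T.w3)
      + v4 * v4' * L.ip T.v3 T.v3 := by
  have key := ip_sum (L := L) (ι := Fin 7) he hd ![2, 4, 4, 4, 6, 6, 6] ![2, 4, 2, 0, 6, 4, 2]
    (by
      intro i j hij
      fin_cases i <;> fin_cases j <;> first | exact absurd rfl hij | norm_num)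
    ![p0 • T.x0, p2 • T.x2, r2 • T.y2 + s2 • T.w1, v2 • T.v1, p4 • T.x4,
      r4 • T.y4 + s4 • T.w3, v4 • T.v3]
    ![p0' • T.x0, p2' • T.x2, r2' • T.y2 + s2' • T.w1, v2' • T.v1, p4' • T.x4,
      r4' • T.y4 + s4' • T.w3, v4' • T.v3]
    (by
      intro i
      fin_cases i
      · exact Submodule.smul_mem _ _ T.tx0
      · exact Submodule.smul_mem _ _ T.tx2
      · exact Submodule.add_mem _ (Submodule.smul_mem _ _ T.ty2) (Submodule.smul_mem _ _ T.tw1)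
      · exact Submodule.smul_mem _ _ T.tv1
      · exact Submodule.smul_mem _ _ T.tx4
      · exact Submodule.add_mem _ (Submodule.smul_mem _ _ T.ty4) (Submodule.smul_mem _ _ T.tw3)
      · exact Submodule.smul_mem _ _ T.tv3)
    (by
      intro i
      fin_cases i
      · exact Submodule.smul_mem _ _ T.tx0
      · exact Submodule.smul_mem _ _ T.tx2
      · exact Submodule.add_mem _ (Submodule.smul_mem _ _ T.ty2) (Submodule.smul_mem _ _ T.tw1)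
      · exact Submodule.smul_mem _ _ T.tv1
      · exact Submodule.smul_mem _ _ T.tx4
      · exact Submodule.add_mem _ (Submodule.smul_mem _ _ T.ty4) (Submodule.smul_mem _ _ T.tw3)
      · exact Submodule.smul_mem _ _ T.tv3)
  rw [Fin.sum_univ_seven, Fin.sum_univ_seven, Fin.sum_univ_seven] at key
  simp only [Matrix.cons_val] at key
  unfold ev
  rw [key]
  simp only [map_add, map_smul, LinearMap.add_apply, LinearMap.smul_apply, smul_eq_mul,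
    L.symm T.w1 T.y2, L.symm T.w3 T.y4]
  ring

theorem ip_od (he : 0 < L.e) (hd : 0 < L.d) (p1 r1 p3 r3 p1' r1' p3' r3' : ℝ) :
    L.ip (T.od p1 r1 p3 r3) (T.od p1' r1' p3' r3') =
      p1 * p1' * L.ip T.x1 T.x1 + r1 * r1' * L.ip T.y1 T.y1 + p3 * p3' * L.ip T.x3 T.x3
      + r3 * r3' * L.ip T.y3 T.y3 := by
  have key := ip_sum (L := L) (ι := Fin 4) he hd ![3, 3, 5, 5] ![3, 1, 5, 3]
    (by
      intro i j hij
      fin_cases i <;> fin_cases j <;> first | exact absurd rfl hij | norm_num)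
    ![p1 • T.x1, r1 • T.y1, p3 • T.x3, r3 • T.y3]
    ![p1' • T.x1, r1' • T.y1, p3' • T.x3, r3' • T.y3]
    (by
      intro i
      fin_cases i
      · exact Submodule.smul_mem _ _ T.tx1
      · exact Submodule.smul_mem _ _ T.ty1
      · exact Submodule.smul_mem _ _ T.tx3
      · exact Submodule.smul_mem _ _ T.ty3)
    (by
      intro i
      fin_cases i
      · exact Submodule.smul_mem _ _ T.tx1
      · exact Submodule.smul_mem _ _ T.ty1
      · exact Submodule.smul_mem _ _ T.tx3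
      · exact Submodule.smul_mem _ _ T.ty3)
  rw [Fin.sum_univ_four, Fin.sum_univ_four, Fin.sum_univ_four] at key
  simp only [Matrix.cons_val] at key
  unfold od
  rw [key]
  simp only [map_smul, LinearMap.smul_apply, smul_eq_mul]
  ring

theorem X_od (p1 r1 p3 r3 : ℝ) : L.X (T.od p1 r1 p3 r3) =
    T.ev (-T.a1 * p1 - T.b1 * r1) (p1 - T.a3 * p3 - T.b3 * r3) (p1 - T.c2 * r3) r1 r1 p3 p3 r3
      r3 := by
  unfold od ev
  simp only [map_add, map_smul, T.X1, T.Y1, T.X3, T.Y3]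
  module

theorem X_ev (p0 p2 : ℝ) : L.X (T.ev p0 p2 0 0 0 0 0 0 0) = T.od (p0 - T.a2 * p2) p0 p2 p2 := by
  unfold od ev
  simp only [map_add, map_smul, T.X0, T.X2]
  module

theorem D_od (p1 r1 p3 r3 : ℝ) : L.L1.Δ (T.od p1 r1 p3 r3) =
    T.od (3 * L.e * p1) ((3 * L.e + 2 * L.d + 6) * r1) (5 * L.e * p3)
      ((5 * L.e + 2 * L.d + 14) * r3) := by
  unfold od
  simp only [map_add, map_smul, Ty.d1 T.tx1, Ty.d1 T.ty1, Ty.d1 T.tx3, Ty.d1 T.ty3]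
  module

theorem D_ev (p0 p2 r2 s2 v2 p4 r4 s4 v4 : ℝ) :
    L.L1.Δ (T.ev p0 p2 r2 s2 v2 p4 r4 s4 v4) =
    T.ev (2 * L.e * p0) (4 * L.e * p2) ((4 * L.e + 2 * L.d + 10) * r2)
      ((4 * L.e + 2 * L.d + 10) * s2) ((4 * L.e + 4 * L.d + 12) * v2) (6 * L.e * p4)
      ((6 * L.e + 2 * L.d + 18) * r4) ((6 * L.e + 2 * L.d + 18) * s4)
      ((6 * L.e + 4 * L.d + 28) * v4) := by
  unfold ev
  simp only [map_add, map_smul, Ty.d1 T.tx0, Ty.d1 T.tx2, Ty.d1 T.ty2, Ty.d1 T.tw1, Ty.d1 T.tv1,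
    Ty.d1 T.tx4, Ty.d1 T.ty4, Ty.d1 T.tw3, Ty.d1 T.tv3]
  module

end Tw

end Vale.Agent.P207.H639
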