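import Vale.Agent.P207.H639.Gram2

/-!
# P207: the recursions of the tower and the certificate for `H^m`
-/

noncomputable section

namespace Vale.Agent.P207.H639

/-- `κ_{p q}` -/
def kap (n d p q : ℝ) : ℝ := p * (p + n - 2) + 3 * (q * (q + d - 1))

/-- the relations between the norms of the tower; `n = e + d + 1` -/
structure Rc (n d lam a1 a2 a3 a4 b1 b2 b3 b4 c2 c3 c5 w1 v1 w3 v3 : ℝ) : Prop where
  hc2 : c2 * (n + 8) = (n + 4) * a2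
  hc3 : c3 * (n + 6) = n + 2
  hc5 : c5 * (n + 10) = n + 6
  r1 : (n + 4) * (a1 + b1) = lam + 2 * kap n d 2 2
  r2 : (n + 6) * (a2 + b2) = lam + 2 * kap n d 3 3 + (n + 2) * a1
  r3 : (n + 8) * (a3 + b3) = lam + 2 * kap n d 4 4 + (n + 4) * a2
  r4 : (n + 10) * (a4 + b4) = lam + 2 * kap n d 5 5 + (n + 6) * a3
  l2 : (2 * d + 14) * a2 - 4 * (d + 4) * b2 =
    16 * (d + 4) + 4 * (d + 4) * a1 - (2 * d + 2) * ((1 + c3) * b1)
  l3 : (n + 8) * ((2 * d + 18) * a3 - 4 * (d + 6) * b3) =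
    (n + 8) * (16 * (d + 6) + 4 * (d + 6) * a2 - (2 * d + 6) * (a1 + b2))
      - (2 * d + 6) * ((n + 4) * b2)
  l4 : (2 * d + 22) * a4 - 4 * (d + 8) * b4 =
    16 * (d + 8) + 4 * (d + 8) * a3 - (2 * d + 10) * (a2 + (1 + c5) * b3)
  wv1 : (n + 6) * (w1 + v1) = (lam + 2 * kap n d 3 1) * b1 + (n + 2) * b1 ^ 2
  ww1 : ((d + 5) * a1 - (d + 1) * b1 - 16 * (d + 1)) * b1 + (d + 5) * (c3 * (a1 * b1))
      - (d + 1) * w1 = (d + 3) * (w1 + b1 ^ 2) - (d - 1) * v1 - 8 * d * b1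
  wv3 : (n + 10) * (w3 + v3) = (lam + 2 * kap n d 5 3) * (b3 * (a2 * a1))
      + (n + 6) * (c2 ^ 2 * (b2 * a1) + b3 ^ 2 * (a2 * a1))
  ww3 : ((d + 9) * a3 - (d + 5) * (a2 + b3) - 32 * (d + 3)) * (b3 * (a2 * a1))
      + (d + 9) * (c5 * (a3 * (b3 * (a2 * a1)))) - (d + 5) * w3 =
    (d + 7) * (w3 + b3 ^ 2 * (a2 * a1)) - (d + 3) * (c2 ^ 2 * (b2 * a1) + v3)
      - 24 * (d + 2) * (b3 * (a2 * a1))
      - a2 * (-(d + 7) * (b3 * (a2 * a1))) - a2 * ((d + 3) * (c2 * (b2 * a1)))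

section H

variable {m s b lam a2 a3 a4 b2 b3 b4 c2 c3 c5 w1 v1 w3 v3 : ℝ}

theorem h_lam (hm : 2 ≤ m)
    (h : Rc (4 * m) 3 lam (s - b) a2 a3 a4 b b2 b3 b4 c2 c3 c5 w1 v1 w3 v3) :
    lam = 4 * (m + 1) * s - 16 * m - 48 := by
  have h1 := h.r1
  unfold kap at h1
  linear_combination -h1

theorem h_c3 (hm : 2 ≤ m)
    (h : Rc (4 * m) 3 lam (s - b) a2 a3 a4 b b2 b3 b4 c2 c3 c5 w1 v1 w3 v3) :
    c3 = (2 * m + 1) / (2 * m + 3) := by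
  have h1 := h.hc3
  rw [eq_div_iff (by linarith)]
  linear_combination (1 / 2) * h1

theorem h_c5 (hm : 2 ≤ m)
    (h : Rc (4 * m) 3 lam (s - b) a2 a3 a4 b b2 b3 b4 c2 c3 c5 w1 v1 w3 v3) :
    c5 = (2 * m + 3) / (2 * m + 5) := by
  have h1 := h.hc5
  rw [eq_div_iff (by linarith)]
  linear_combination (1 / 2) * h1

theorem h_a2 (hm : 2 ≤ m)
    (h : Rc (4 * m) 3 lam (s - b) a2 a3 a4 b b2 b3 b4 c2 c3 c5 w1 v1 w3 v3) :
    a2 = (21 - 3 * b + 7 * m + (7 / 2) * s - 3 * b * m + (7 / 2) * m * s) / ((2 * m + 3)) := by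
  have h1 := h.r2
  have hl := h_lam hm h
  have e0 : (2 * m + 3 : ℝ) ≠ 0 := by linarith
  have e1 : (m + 2 : ℝ) ≠ 0 := by linarith
  have e2 : (2 * m + 5 : ℝ) ≠ 0 := by linarith
  have e3 : (4 * m + 6 : ℝ) ≠ 0 := by linarith
  unfold kap at h1
  rw [hl] at h1
  have h2 := h.l2
  have key : a2 = (28 * (4 * (m + 1) * s - 16 * m - 48 + 2 * (12 * m + 48) + (4 * m + 2) * (s -
      b)) + (4 * m + 6) * (112 + 28 * (s - b) - 8 * ((1 + c3) * b))) / ((4 * m + 6) * 48) := by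
    rw [eq_div_iff (mul_ne_zero e3 (by norm_num))]
    linear_combination 28 * h1 + (4 * m + 6) * h2
  rw [key, h_c3 hm h]
  field_simp
  ring

theorem h_b2 (hm : 2 ≤ m)
    (h : Rc (4 * m) 3 lam (s - b) a2 a3 a4 b b2 b3 b4 c2 c3 c5 w1 v1 w3 v3) :
    b2 = (3 + 2 * b - 3 * m - (1 / 2) * s + b * m + (1 / 2) * m * s) / ((2 * m + 3)) := by
  have h1 := h.r2
  have hl := h_lam hm h
  have e0 : (2 * m + 3 : ℝ) ≠ 0 := by linarith
  have e1 : (m + 2 : ℝ) ≠ 0 := by linarith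
  have e2 : (2 * m + 5 : ℝ) ≠ 0 := by linarith
  have e3 : (4 * m + 6 : ℝ) ≠ 0 := by linarith
  unfold kap at h1
  rw [hl] at h1
  have key : b2 = (4 * (m + 1) * s - 16 * m - 48 + 2 * (12 * m + 48) + (4 * m + 2) * (s - b)) / (4
      * m + 6) - a2 := by
    rw [eq_sub_iff_add_eq, eq_div_iff e3]
    linear_combination h1
  rw [key, h_a2 hm h]
  field_simp
  ring

theorem h_a3 (hm : 2 ≤ m)
    (h : Rc (4 * m) 3 lam (s - b) a2 a3 a4 b b2 b3 b4 c2 c3 c5 w1 v1 w3 v3) :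
    a3 = ((168 / 5) - (9 / 5) * b + (48 / 5) * m + (12 / 5) * s - (9 / 5) * b * m + (12 / 5) * m *
        s) / ((m + 2)) := by
  have h1 := h.r3
  have hl := h_lam hm h
  have e0 : (2 * m + 3 : ℝ) ≠ 0 := by linarith
  have e1 : (m + 2 : ℝ) ≠ 0 := by linarith
  have e2 : (2 * m + 5 : ℝ) ≠ 0 := by linarith
  have e3 : (4 * m + 8 : ℝ) ≠ 0 := by linarith
  unfold kap at h1
  rw [hl] at h1
  have h2 := h.l3
  have key : a3 = (36 * (4 * (m + 1) * s - 16 * m - 48 + 2 * (16 * m + 80) + (4 * m + 4) * a2) +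
      ((4 * m + 8) * (144 + 36 * a2 - 12 * (s - b + b2)) - 12 * ((4 * m + 4) * b2))) / ((4 * m +
      8) * 60) := by
    rw [eq_div_iff (mul_ne_zero e3 (by norm_num))]
    linear_combination 36 * h1 + h2
  rw [key, h_a2 hm h, h_b2 hm h]
  field_simp
  ring

theorem h_b3 (hm : 2 ≤ m)
    (h : Rc (4 * m) 3 lam (s - b) a2 a3 a4 b b2 b3 b4 c2 c3 c5 w1 v1 w3 v3) :
    b3 = ((21 / 5) + (12 / 5) * b - (7 / 10) * s + 3 * b * m - (21 / 5) * m ^ 2 + (3 / 5) * b * m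
        ^ 2 + (7 / 10) * m ^ 2 * s) / ((2 * m + 3) * (m + 2)) := by
  have h1 := h.r3
  have hl := h_lam hm h
  have e0 : (2 * m + 3 : ℝ) ≠ 0 := by linarith
  have e1 : (m + 2 : ℝ) ≠ 0 := by linarith
  have e2 : (2 * m + 5 : ℝ) ≠ 0 := by linarith
  have e3 : (4 * m + 8 : ℝ) ≠ 0 := by linarith
  unfold kap at h1
  rw [hl] at h1
  have key : b3 = (4 * (m + 1) * s - 16 * m - 48 + 2 * (16 * m + 80) + (4 * m + 4) * a2) / (4 * m
      + 8) - a3 := by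
    rw [eq_sub_iff_add_eq, eq_div_iff e3]
    linear_combination h1
  rw [key, h_a3 hm h, h_a2 hm h]
  field_simp
  ring

theorem h_a4 (hm : 2 ≤ m)
    (h : Rc (4 * m) 3 lam (s - b) a2 a3 a4 b b2 b3 b4 c2 c3 c5 w1 v1 w3 v3) :
    a4 = (144 - 4 * b + 36 * m + 6 * s - 4 * b * m + 6 * m * s) / ((2 * m + 5)) := by
  have h1 := h.r4
  have hl := h_lam hm h
  have e0 : (2 * m + 3 : ℝ) ≠ 0 := by linarith
  have e1 : (m + 2 : ℝ) ≠ 0 := by linarith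
  have e2 : (2 * m + 5 : ℝ) ≠ 0 := by linarith
  have e3 : (4 * m + 10 : ℝ) ≠ 0 := by linarith
  unfold kap at h1
  rw [hl] at h1
  have h2 := h.l4
  have key : a4 = (44 * (4 * (m + 1) * s - 16 * m - 48 + 2 * (20 * m + 120) + (4 * m + 6) * a3) +
      (4 * m + 10) * (176 + 44 * a3 - 16 * (a2 + (1 + c5) * b3))) / ((4 * m + 10) * 72) := by
    rw [eq_div_iff (mul_ne_zero e3 (by norm_num))]
    linear_combination 44 * h1 + (4 * m + 10) * h2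
  rw [key, h_a3 hm h, h_b3 hm h, h_a2 hm h, h_c5 hm h]
  field_simp
  ring

theorem h_b4 (hm : 2 ≤ m)
    (h : Rc (4 * m) 3 lam (s - b) a2 a3 a4 b b2 b3 b4 c2 c3 c5 w1 v1 w3 v3) :
    b4 = ((24 / 5) + (13 / 5) * b - (4 / 5) * s + 3 * b * m - (24 / 5) * m ^ 2 + (2 / 5) * b * m ^
        2 + (4 / 5) * m ^ 2 * s) / ((m + 2) * (2 * m + 5)) := by
  have h1 := h.r4
  have hl := h_lam hm h
  have e0 : (2 * m + 3 : ℝ) ≠ 0 := by linarith
  have e1 : (m + 2 : ℝ) ≠ 0 := by linarith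
  have e2 : (2 * m + 5 : ℝ) ≠ 0 := by linarith
  have e3 : (4 * m + 10 : ℝ) ≠ 0 := by linarith
  unfold kap at h1
  rw [hl] at h1
  have key : b4 = (4 * (m + 1) * s - 16 * m - 48 + 2 * (20 * m + 120) + (4 * m + 6) * a3) / (4 * m
      + 10) - a4 := by
    rw [eq_sub_iff_add_eq, eq_div_iff e3]
    linear_combination h1
  rw [key, h_a4 hm h, h_a3 hm h]
  field_simp
  ring

theorem h_c2 (hm : 2 ≤ m)
    (h : Rc (4 * m) 3 lam (s - b) a2 a3 a4 b b2 b3 b4 c2 c3 c5 w1 v1 w3 v3) :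
    c2 = (21 - 3 * b + 28 * m + (7 / 2) * s - 6 * b * m + 7 * m * s + 7 * m ^ 2 - 3 * b * m ^ 2 +
        (7 / 2) * m ^ 2 * s) / ((2 * m + 3) * (m + 2)) := by
  have h1 := h.hc2
  have e0 : (2 * m + 3 : ℝ) ≠ 0 := by linarith
  have e1 : (m + 2 : ℝ) ≠ 0 := by linarith
  have e3 : (4 * m + 8 : ℝ) ≠ 0 := by linarith
  have key : c2 = (4 * m + 4) * a2 / (4 * m + 8) := by
    rw [eq_div_iff e3]
    linear_combination h1
  rw [key, h_a2 hm h]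
  field_simp
  ring

theorem h_w1 (hm : 2 ≤ m)
    (h : Rc (4 * m) 3 lam (s - b) a2 a3 a4 b b2 b3 b4 c2 c3 c5 w1 v1 w3 v3) :
    w1 = (-12 * b - 6 * b * m + 3 * b * s - 5 * b ^ 2 + 3 * b * m * s - 4 * b ^ 2 * m) / ((2 * m +
        3)) := by
  have hl := h_lam hm h
  have e0 : (2 * m + 3 : ℝ) ≠ 0 := by linarith
  have e1 : (m + 2 : ℝ) ≠ 0 := by linarith
  have e2 : (2 * m + 5 : ℝ) ≠ 0 := by linarith
  have e3 : (4 * m + 6 : ℝ) ≠ 0 := by linarith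
  have e4 : (4 * m + 10 : ℝ) ≠ 0 := by linarith
  have h1 := h.wv1
  have h2 := h.ww1
  unfold kap at h1
  rw [hl] at h1
  have h1' : w1 + v1 = ((4 * (m + 1) * s + 8 * m - 24) * b + (4 * m + 2) * b ^ 2) / (4 * m + 6) :=
      by
    rw [eq_div_iff e3]
    linear_combination h1
  have key : w1 = ((8 * (s - b) - 4 * b - 64) * b + 8 * (c3 * ((s - b) * b)) - 6 * b ^ 2 + 24 * b
      + 2 * (((4 * (m + 1) * s + 8 * m - 24) * b + (4 * m + 2) * b ^ 2) / (4 * m + 6))) / 12 := by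
    linear_combination (1 / 6) * h1' - (1 / 12) * h2
  rw [key, h_c3 hm h]
  field_simp
  ring

theorem h_v1 (hm : 2 ≤ m)
    (h : Rc (4 * m) 3 lam (s - b) a2 a3 a4 b b2 b3 b4 c2 c3 c5 w1 v1 w3 v3) :
    v1 = (10 * b * m - b * s + 6 * b ^ 2 - b * m * s + 6 * b ^ 2 * m) / ((2 * m + 3)) := by
  have hl := h_lam hm h
  have e0 : (2 * m + 3 : ℝ) ≠ 0 := by linarith
  have e1 : (m + 2 : ℝ) ≠ 0 := by linarith
  have e2 : (2 * m + 5 : ℝ) ≠ 0 := by linarith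
  have e3 : (4 * m + 6 : ℝ) ≠ 0 := by linarith
  have e4 : (4 * m + 10 : ℝ) ≠ 0 := by linarith
  have h1 := h.wv1
  unfold kap at h1
  rw [hl] at h1
  have key : v1 = ((4 * (m + 1) * s + 8 * m - 24) * b + (4 * m + 2) * b ^ 2) / (4 * m + 6) - w1 :=
      by
    rw [eq_sub_iff_add_eq, eq_div_iff e3]
    linear_combination h1
  rw [key, h_w1 hm h]
  field_simp
  ring

theorem h_c2' (hm : 2 ≤ m)
    (h : Rc (4 * m) 3 lam (s - b) a2 a3 a4 b b2 b3 b4 c2 c3 c5 w1 v1 w3 v3) :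
    c2 = (m + 1) / (m + 2) * a2 := by
  have h1 := h.hc2
  have e1 : (m + 2 : ℝ) ≠ 0 := by linarith
  field_simp
  linear_combination (1 / 4) * h1

theorem h_sum3 (hm : 2 ≤ m)
    (h : Rc (4 * m) 3 lam (s - b) a2 a3 a4 b b2 b3 b4 c2 c3 c5 w1 v1 w3 v3) :
    ((4 * (m + 1) * s + 24 * m + 72) * b3 + (4 * m + 6) * (((m + 1) / (m + 2)) ^ 2 * (a2 * b2) +
        b3 ^ 2)) / (4 * m + 10) = ((9576 / 25) + (5649 / 25) * b + 336 * m - (987 / 25) * s +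
        (2431 / 5) * b * m + (737 / 50) * b * s - (6 / 25) * b ^ 2 - (49 / 5) * m * s - (8232 /
        25) * m ^ 2 - (203 / 50) * s ^ 2 + (497 / 10) * b * m * s + (8897 / 25) * b * m ^ 2 - (33
        / 5) * b ^ 2 * m - (77 / 10) * m * s ^ 2 + (1309 / 25) * m ^ 2 * s - 336 * m ^ 3 + (2961 /
        50) * b * m ^ 2 * s + (569 / 5) * b * m ^ 3 - (378 / 25) * b ^ 2 * m ^ 2 + (21 / 50) * m ^
        2 * s ^ 2 + (49 / 5) * m ^ 3 * s - (1344 / 25) * m ^ 4 + (283 / 10) * b * m ^ 3 * s + (454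
        / 25) * b * m ^ 4 - (57 / 5) * b ^ 2 * m ^ 3 + (77 / 10) * m ^ 3 * s ^ 2 - (322 / 25) * m
        ^ 4 * s + (101 / 25) * b * m ^ 4 * s - (66 / 25) * b ^ 2 * m ^ 4 + (91 / 25) * m ^ 4 * s ^
        2) / ((2 * m + 3) * (m + 2) ^ 2 * (2 * m + 5)) := by
  have hl := h_lam hm h
  have e0 : (2 * m + 3 : ℝ) ≠ 0 := by linarith
  have e1 : (m + 2 : ℝ) ≠ 0 := by linarith
  have e2 : (2 * m + 5 : ℝ) ≠ 0 := by linarith
  have e3 : (4 * m + 6 : ℝ) ≠ 0 := by linarith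
  have e4 : (4 * m + 10 : ℝ) ≠ 0 := by linarith
  rw [h_b3 hm h, h_a2 hm h, h_b2 hm h]
  field_simp
  ring

theorem h_stuff (hm : 2 ≤ m)
    (h : Rc (4 * m) 3 lam (s - b) a2 a3 a4 b b2 b3 b4 c2 c3 c5 w1 v1 w3 v3) :
    ((12 * a3 - 8 * (a2 + b3) - 192) * b3 + 12 * (c5 * (a3 * b3)) - 10 * b3 ^ 2 + 6 * (((m + 1) /
        (m + 2)) ^ 2 * (a2 * b2)) + 120 * b3 - 10 * (a2 * b3) + 6 * (((m + 1) / (m + 2)) * (a2 *
        b2))) =
      ((164808 / 25) + (85122 / 25) * b + (32256 / 5) * m - (15246 / 25) * s + (41178 / 5) * b * m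
          + (9993 / 25) * b * s - (8388 / 25) * b ^ 2 - 294 * m * s - (130536 / 25) * m ^ 2 -
          (2037 / 25) * s ^ 2 + (5331 / 5) * b * m * s + (184146 / 25) * b * m ^ 2 - (4878 / 5) *
          b ^ 2 * m - (651 / 5) * m * s ^ 2 + (16842 / 25) * m ^ 2 * s - (32256 / 5) * m ^ 3 +
          (23769 / 25) * b * m ^ 2 * s + (15342 / 5) * b * m ^ 3 - (25164 / 25) * b ^ 2 * m ^ 2 +
          (819 / 25) * m ^ 2 * s ^ 2 + 294 * m ^ 3 * s - (34272 / 25) * m ^ 4 + (1509 / 5) * b * m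
          ^ 3 * s + (13332 / 25) * b * m ^ 4 - (2142 / 5) * b ^ 2 * m ^ 3 + (651 / 5) * m ^ 3 * s
          ^ 2 - (1596 / 25) * m ^ 4 * s + (438 / 25) * b * m ^ 4 * s - (1548 / 25) * b ^ 2 * m ^ 4
          + (1218 / 25) * m ^ 4 * s ^ 2) / ((2 * m + 3) * (m + 2) ^ 2 * (2 * m + 5)) := by
  have hl := h_lam hm h
  have e0 : (2 * m + 3 : ℝ) ≠ 0 := by linarith
  have e1 : (m + 2 : ℝ) ≠ 0 := by linarith
  have e2 : (2 * m + 5 : ℝ) ≠ 0 := by linarith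
  have e3 : (4 * m + 6 : ℝ) ≠ 0 := by linarith
  have e4 : (4 * m + 10 : ℝ) ≠ 0 := by linarith
  rw [h_c5 hm h, h_b3 hm h, h_a2 hm h, h_b2 hm h, h_a3 hm h]
  field_simp
  ring

theorem h_z3 (hm : 2 ≤ m)
    (h : Rc (4 * m) 3 lam (s - b) a2 a3 a4 b b2 b3 b4 c2 c3 c5 w1 v1 w3 v3) :
    (16 + 4 * m) * v3 + 4 * m * w3 = (s - b) * a2 * (((1008 / 5) + (2208 / 5) * b + (31584 / 25) *
        m - (336 / 5) * s + (31196 / 25) * b * m - (448 / 5) * b * s + (1104 / 5) * b ^ 2 - (1988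
        / 25) * m * s + (4368 / 5) * m ^ 2 + (28 / 5) * s ^ 2 - (1386 / 25) * b * m * s + (6524 /
        5) * b * m ^ 2 + (14256 / 25) * b ^ 2 * m - (546 / 25) * m * s ^ 2 + 140 * m ^ 2 * s -
        (26208 / 25) * m ^ 3 + (1378 / 5) * b * m ^ 2 * s + (18588 / 25) * b * m ^ 3 + (2316 / 5)
        * b ^ 2 * m ^ 2 - (238 / 5) * m ^ 2 * s ^ 2 + (3276 / 25) * m ^ 3 * s - (5376 / 5) * m ^ 4
        + (9382 / 25) * b * m ^ 3 * s + (1588 / 5) * b * m ^ 4 + (2208 / 25) * b ^ 2 * m ^ 3 +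
        (182 / 25) * m ^ 3 * s ^ 2 - (364 / 5) * m ^ 4 * s - (5376 / 25) * m ^ 5 + 150 * b * m ^ 4
        * s + (1816 / 25) * b * m ^ 5 - 36 * b ^ 2 * m ^ 4 + 42 * m ^ 4 * s ^ 2 - (1288 / 25) * m
        ^ 5 * s + (404 / 25) * b * m ^ 5 * s - (264 / 25) * b ^ 2 * m ^ 5 + (364 / 25) * m ^ 5 * s
        ^ 2) / ((2 * m + 3) * (m + 2) ^ 2 * (2 * m + 5))) := by
  have hl := h_lam hm h
  have e0 : (2 * m + 3 : ℝ) ≠ 0 := by linarith
  have e1 : (m + 2 : ℝ) ≠ 0 := by linarith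
  have e2 : (2 * m + 5 : ℝ) ≠ 0 := by linarith
  have e3 : (4 * m + 6 : ℝ) ≠ 0 := by linarith
  have e4 : (4 * m + 10 : ℝ) ≠ 0 := by linarith
  have h1 := h.wv3
  have h2 := h.ww3
  unfold kap at h1
  rw [hl, h_c2' hm h] at h1
  rw [h_c2' hm h] at h2
  have h1' : w3 + v3 = (s - b) * a2 * (((4 * (m + 1) * s + 24 * m + 72) * b3 + (4 * m + 6) * (((m
      + 1) / (m + 2)) ^ 2 * (a2 * b2) + b3 ^ 2)) / (4 * m + 10)) := by
    rw [← mul_div_assoc, eq_div_iff e4]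
    linear_combination h1
  have key : (16 + 4 * m) * v3 + 4 * m * w3 = (s - b) * a2 * ((12 + 4 * m) * (((4 * (m + 1) * s +
      24 * m + 72) * b3 + (4 * m + 6) * (((m + 1) / (m + 2)) ^ 2 * (a2 * b2) + b3 ^ 2)) / (4 * m +
      10)) -
      (2 / 3) * ((12 * a3 - 8 * (a2 + b3) - 192) * b3 + 12 * (c5 * (a3 * b3)) - 10 * b3 ^ 2 + 6 *
          (((m + 1) / (m + 2)) ^ 2 * (a2 * b2)) + 120 * b3 - 10 * (a2 * b3) + 6 * (((m + 1) / (m +
          2)) * (a2 * b2)))) := by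
    linear_combination (12 + 4 * m) * h1' + (2 / 3) * h2
  rw [key, h_sum3 hm h, h_stuff hm h]
  congr 1
  field_simp
  ring

end H

end Vale.Agent.P207.H639
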