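import Vale.Agent.P207.H639.Gram3

/-!
# P207: the Gram entries for `H^m` in closed form and the certificate
-/

noncomputable section

namespace Vale.Agent.P207.H639

section H

variable {m s b lam a2 a3 a4 b2 b3 b4 c2 c3 c5 w1 v1 w3 v3 : ℝ}

theorem j_20 (hm : 2 ≤ m)
    (h : Rc (4 * m) 3 lam (s - b) a2 a3 a4 b b2 b3 b4 c2 c3 c5 w1 v1 w3 v3) :
    -12 * v1 - 4 * w1 - 12 * a2 * b + 12 * a2 * s + 4 * b * b2 - 4 * b2 * s - 12 * m * v1 - 12 * m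
        * w1 + 4 * s ^ 2 + 12 * a2 * b * m - 12 * a2 * m * s + 12 * b * b2 * m - 8 * b * c3 * s +
        8 * b ^ 2 * c3 - 12 * b2 * m * s - 4 * m * s ^ 2 - 24 * b * c3 * m * s + 24 * b ^ 2 * c3 *
        m =
      (-192 * b + 240 * s + 240 * b * m - 96 * b * s - 192 * m * s + 56 * s ^ 2 - 96 * b * m * s -
          48 * m ^ 2 * s - 56 * m ^ 2 * s ^ 2) / ((2 * m + 3)) := by
  have e0 : (2 * m + 3 : ℝ) ≠ 0 := by linarith
  have e1 : (m + 2 : ℝ) ≠ 0 := by linarith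
  have e2 : (2 * m + 5 : ℝ) ≠ 0 := by linarith
  rw [h_c3 hm h, h_w1 hm h, h_v1 hm h, h_a2 hm h, h_b2 hm h]
  field_simp
  ring

theorem j_11 (hm : 2 ≤ m)
    (h : Rc (4 * m) 3 lam (s - b) a2 a3 a4 b b2 b3 b4 c2 c3 c5 w1 v1 w3 v3) :
    -48 * b + 48 * s + 12 * v1 + 4 * w1 - 16 * b * b2 - 12 * b * s + 16 * b2 * s - 48 * m * s + 8
        * s ^ 2 + 20 * b * c3 * s - 20 * b ^ 2 * c3 - 8 * m * s ^ 2 =
      (-240 * b + 192 * s + 48 * b * m + 24 * b * s - 96 * m * s + 16 * s ^ 2 + 24 * b * m * s -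
          96 * m ^ 2 * s - 16 * m ^ 2 * s ^ 2) / ((2 * m + 3)) := by
  have e0 : (2 * m + 3 : ℝ) ≠ 0 := by linarith
  have e1 : (m + 2 : ℝ) ≠ 0 := by linarith
  have e2 : (2 * m + 5 : ℝ) ≠ 0 := by linarith
  rw [h_c3 hm h, h_w1 hm h, h_v1 hm h, h_b2 hm h]
  field_simp
  ring

theorem j_02 (hm : 2 ≤ m)
    (h : Rc (4 * m) 3 lam (s - b) a2 a3 a4 b b2 b3 b4 c2 c3 c5 w1 v1 w3 v3) :
    12 * b - 8 * s - 8 * v1 - 4 * a2 * b + 4 * a2 * s + 12 * b * b2 + 12 * b * s - 12 * b2 * s + 8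
        * m * s - 4 * m * v1 - 4 * m * w1 - 4 * s ^ 2 + 4 * a2 * b * m - 4 * a2 * m * s + 4 * b *
        b2 * m - 12 * b * c3 * s + 12 * b ^ 2 * c3 - 4 * b2 * m * s + 4 * m * s ^ 2 - 8 * b * c3 *
        m * s + 8 * b ^ 2 * c3 * m =
      (-12 * b + 24 * s + 24 * b * m - 24 * b * s - 24 * m * s + 8 * s ^ 2 - 24 * b * m * s - 8 *
          m ^ 2 * s ^ 2) / ((2 * m + 3)) := by
  have e0 : (2 * m + 3 : ℝ) ≠ 0 := by linarith
  have e1 : (m + 2 : ℝ) ≠ 0 := by linarith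
  have e2 : (2 * m + 5 : ℝ) ≠ 0 := by linarith
  rw [h_c3 hm h, h_w1 hm h, h_v1 hm h, h_a2 hm h, h_b2 hm h]
  field_simp
  ring

theorem j_13 (hm : 2 ≤ m)
    (h : Rc (4 * m) 3 lam (s - b) a2 a3 a4 b b2 b3 b4 c2 c3 c5 w1 v1 w3 v3) :
    -48 + 12 * b - 16 * b2 + 48 * m - 8 * s - 4 * b * c3 - 16 * b2 * ((m + 1) / (m + 2)) + 8 * m *
        s - 4 * b * c3 * ((m + 1) / (m + 2)) =
      (-144 - 12 * b + 96 * m - 8 * s - 12 * b * m + 48 * m ^ 2 + 8 * m ^ 2 * s) / ((m + 2)) := by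
  have e0 : (2 * m + 3 : ℝ) ≠ 0 := by linarith
  have e1 : (m + 2 : ℝ) ≠ 0 := by linarith
  have e2 : (2 * m + 5 : ℝ) ≠ 0 := by linarith
  rw [h_c3 hm h, h_b2 hm h]
  field_simp
  ring

theorem j_14 (hm : 2 ≤ m)
    (h : Rc (4 * m) 3 lam (s - b) a2 a3 a4 b b2 b3 b4 c2 c3 c5 w1 v1 w3 v3) :
    -24 * a3 + 24 * a3 * m =
      (-(4032 / 5) + (216 / 5) * b + 576 * m - (288 / 5) * s + (1152 / 5) * m ^ 2 - (216 / 5) * b
          * m ^ 2 + (288 / 5) * m ^ 2 * s) / ((m + 2)) := by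
  have e0 : (2 * m + 3 : ℝ) ≠ 0 := by linarith
  have e1 : (m + 2 : ℝ) ≠ 0 := by linarith
  have e2 : (2 * m + 5 : ℝ) ≠ 0 := by linarith
  rw [h_a3 hm h]
  field_simp
  ring

theorem j_23 (hm : 2 ≤ m)
    (h : Rc (4 * m) 3 lam (s - b) a2 a3 a4 b b2 b3 b4 c2 c3 c5 w1 v1 w3 v3) :
    16 - 8 * a2 - 12 * b + 24 * b2 - 20 * b3 - 16 * m + 8 * s + 8 * a2 * m + 12 * b * c3 + 12 * b2
        * ((m + 1) / (m + 2)) + 8 * b2 * m - 8 * m * s + 8 * b * c3 * m =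
      (-48 + 24 * b + 48 * m - 8 * s + 24 * b * m + 8 * m ^ 2 * s) / ((m + 2)) := by
  have e0 : (2 * m + 3 : ℝ) ≠ 0 := by linarith
  have e1 : (m + 2 : ℝ) ≠ 0 := by linarith
  have e2 : (2 * m + 5 : ℝ) ≠ 0 := by linarith
  rw [h_c3 hm h, h_b3 hm h, h_a2 hm h, h_b2 hm h]
  field_simp
  ring

theorem j_24 (hm : 2 ≤ m)
    (h : Rc (4 * m) 3 lam (s - b) a2 a3 a4 b b2 b3 b4 c2 c3 c5 w1 v1 w3 v3) :
    -8 * a3 + 8 * a3 * m =
      (-(1344 / 5) + (72 / 5) * b + 192 * m - (96 / 5) * s + (384 / 5) * m ^ 2 - (72 / 5) * b * m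
          ^ 2 + (96 / 5) * m ^ 2 * s) / ((m + 2)) := by
  have e0 : (2 * m + 3 : ℝ) ≠ 0 := by linarith
  have e1 : (m + 2 : ℝ) ≠ 0 := by linarith
  have e2 : (2 * m + 5 : ℝ) ≠ 0 := by linarith
  rw [h_a3 hm h]
  field_simp
  ring

theorem j_33r (hm : 2 ≤ m)
    (h : Rc (4 * m) 3 lam (s - b) a2 a3 a4 b b2 b3 b4 c2 c3 c5 w1 v1 w3 v3) :
    -8 * a2 - 16 * a3 + 4 * b3 + 4 * a2 * b - 12 * a2 * b2 + 20 * a2 * b3 + 8 * a2 * m - 4 * a2 *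
        s + 4 * a2 ^ 2 + 4 * a3 * a4 + 12 * a3 * b3 - 20 * a3 * b4 + 16 * a3 * m - 4 * a3 ^ 2 + 16
        * b3 * m + 16 * b3 ^ 2 - 4 * a2 * b * m - 12 * a2 * b2 * ((m + 1) / (m + 2)) - 4 * a2 * b2
        * m + 4 * a2 * m * s - 4 * a2 ^ 2 * m - 4 * a3 * a4 * m - 20 * a3 * b3 * c5 + 8 * a3 * b3
        * m - 4 * a3 * b4 * m + 4 * a3 ^ 2 * m + 4 * b3 ^ 2 * m - 8 * a3 * b3 * c5 * m + 4 * a2 *
        b2 * ((m + 1) / (m + 2)) ^ 2 * m =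
      ((149688 / 5) - (40272 / 5) * b + (420084 / 25) * m + (23604 / 5) * s - (430804 / 25) * b *
          m - (4408 / 5) * b * s + (3264 / 5) * b ^ 2 + (157462 / 25) * m * s - (107112 / 5) * m ^
          2 + (1108 / 5) * s ^ 2 - (60486 / 25) * b * m * s - (57256 / 5) * b * m ^ 2 + (48456 /
          25) * b ^ 2 * m + (11154 / 25) * m * s ^ 2 - 2128 * m ^ 2 * s - (491508 / 25) * m ^ 3 -
          (10862 / 5) * b * m ^ 2 * s - (47112 / 25) * b * m ^ 3 + (10236 / 5) * b ^ 2 * m ^ 2 +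
          (302 / 5) * m ^ 2 * s ^ 2 - (149574 / 25) * m ^ 3 * s - (26016 / 5) * m ^ 4 - (13718 /
          25) * b * m ^ 3 * s + (2548 / 5) * b * m ^ 4 + (22008 / 25) * b ^ 2 * m ^ 3 - (9718 /
          25) * m ^ 3 * s ^ 2 - (12964 / 5) * m ^ 4 * s - (11376 / 25) * m ^ 5 + 150 * b * m ^ 4 *
          s + (3016 / 25) * b * m ^ 5 + 108 * b ^ 2 * m ^ 4 - 282 * m ^ 4 * s ^ 2 - (7888 / 25) *
          m ^ 5 * s + (1604 / 25) * b * m ^ 5 * s - (264 / 25) * b ^ 2 * m ^ 5 - (1436 / 25) * m ^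
          5 * s ^ 2) / ((2 * m + 3) * (m + 2) ^ 2 * (2 * m + 5)) := by
  have e0 : (2 * m + 3 : ℝ) ≠ 0 := by linarith
  have e1 : (m + 2 : ℝ) ≠ 0 := by linarith
  have e2 : (2 * m + 5 : ℝ) ≠ 0 := by linarith
  rw [h_c5 hm h, h_a4 hm h, h_b4 hm h, h_a3 hm h, h_b3 hm h, h_a2 hm h, h_b2 hm h]
  field_simp
  ring

theorem j_34 (hm : 2 ≤ m)
    (h : Rc (4 * m) 3 lam (s - b) a2 a3 a4 b b2 b3 b4 c2 c3 c5 w1 v1 w3 v3) :
    80 * a3 + 8 * a2 * a3 + 8 * a3 * b3 + 24 * a3 * b4 - 80 * a3 * m + 8 * a3 ^ 2 - 8 * a2 * a3 *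
        m + 24 * a3 * b3 * c5 - 8 * a3 * b3 * m - 8 * a3 ^ 2 * m =
      ((249984 / 5) - (13392 / 5) * b - (122112 / 5) * m + (29952 / 5) * s + 1008 * b * m - (648 /
          5) * b * s + (7488 / 5) * m * s - (111744 / 5) * m ^ 2 + (864 / 5) * s ^ 2 - (72 / 5) *
          b * m * s + 4752 * b * m ^ 2 - (432 / 5) * b ^ 2 * m + (864 / 5) * m * s ^ 2 - (29952 /
          5) * m ^ 2 * s - (16128 / 5) * m ^ 3 + 360 * b * m ^ 2 * s + (5328 / 5) * b * m ^ 3 -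
          (864 / 5) * b ^ 2 * m ^ 2 - (864 / 5) * m ^ 2 * s ^ 2 - (7488 / 5) * m ^ 3 * s + (1224 /
          5) * b * m ^ 3 * s - (432 / 5) * b ^ 2 * m ^ 3 - (864 / 5) * m ^ 3 * s ^ 2) / ((m + 2) *
          (2 * m + 5)) := by
  have e0 : (2 * m + 3 : ℝ) ≠ 0 := by linarith
  have e1 : (m + 2 : ℝ) ≠ 0 := by linarith
  have e2 : (2 * m + 5 : ℝ) ≠ 0 := by linarith
  rw [h_c5 hm h, h_b4 hm h, h_a3 hm h, h_b3 hm h, h_a2 hm h]
  field_simp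
  ring

theorem j_44 (hm : 2 ≤ m)
    (h : Rc (4 * m) 3 lam (s - b) a2 a3 a4 b b2 b3 b4 c2 c3 c5 w1 v1 w3 v3) :
    20 * a3 * a4 - 4 * a3 * b4 + 12 * a3 ^ 2 - 20 * a3 * a4 * m - 20 * a3 * b4 * m - 12 * a3 ^ 2 *
        m =
      ((3257856 / 25) - (291456 / 25) * b - (1609344 / 25) * m + (395328 / 25) * s - (92016 / 25)
          * b * m - (17064 / 25) * b * s + (6264 / 25) * b ^ 2 + (97728 / 25) * m * s - (1443456 /
          25) * m ^ 2 + (11616 / 25) * s ^ 2 - (18504 / 25) * b * m * s + (265536 / 25) * b * m ^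
          2 + (7344 / 25) * b ^ 2 * m + (11616 / 25) * m * s ^ 2 - (395328 / 25) * m ^ 2 * s -
          (205056 / 25) * m ^ 3 + (14184 / 25) * b * m ^ 2 * s + (66096 / 25) * b * m ^ 3 - (4104
          / 25) * b ^ 2 * m ^ 2 - (11616 / 25) * m ^ 2 * s ^ 2 - (97728 / 25) * m ^ 3 * s + (15624
          / 25) * b * m ^ 3 * s - (5184 / 25) * b ^ 2 * m ^ 3 - (11616 / 25) * m ^ 3 * s ^ 2) /
          ((m + 2) * (2 * m + 5)) := by
  have e0 : (2 * m + 3 : ℝ) ≠ 0 := by linarith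
  have e1 : (m + 2 : ℝ) ≠ 0 := by linarith
  have e2 : (2 * m + 5 : ℝ) ≠ 0 := by linarith
  rw [h_a4 hm h, h_b4 hm h, h_a3 hm h]
  field_simp
  ring

theorem j_33 (hm : 2 ≤ m) :
    ((149688 / 5) - (40272 / 5) * b + (420084 / 25) * m + (23604 / 5) * s - (430804 / 25) * b * m
        - (4408 / 5) * b * s + (3264 / 5) * b ^ 2 + (157462 / 25) * m * s - (107112 / 5) * m ^ 2 +
        (1108 / 5) * s ^ 2 - (60486 / 25) * b * m * s - (57256 / 5) * b * m ^ 2 + (48456 / 25) * b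
        ^ 2 * m + (11154 / 25) * m * s ^ 2 - 2128 * m ^ 2 * s - (491508 / 25) * m ^ 3 - (10862 /
        5) * b * m ^ 2 * s - (47112 / 25) * b * m ^ 3 + (10236 / 5) * b ^ 2 * m ^ 2 + (302 / 5) *
        m ^ 2 * s ^ 2 - (149574 / 25) * m ^ 3 * s - (26016 / 5) * m ^ 4 - (13718 / 25) * b * m ^ 3
        * s + (2548 / 5) * b * m ^ 4 + (22008 / 25) * b ^ 2 * m ^ 3 - (9718 / 25) * m ^ 3 * s ^ 2
        - (12964 / 5) * m ^ 4 * s - (11376 / 25) * m ^ 5 + 150 * b * m ^ 4 * s + (3016 / 25) * b *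
        m ^ 5 + 108 * b ^ 2 * m ^ 4 - 282 * m ^ 4 * s ^ 2 - (7888 / 25) * m ^ 5 * s + (1604 / 25)
        * b * m ^ 5 * s - (264 / 25) * b ^ 2 * m ^ 5 - (1436 / 25) * m ^ 5 * s ^ 2) / ((2 * m + 3)
        * (m + 2) ^ 2 * (2 * m + 5)) -
      ((1008 / 5) + (2208 / 5) * b + (31584 / 25) * m - (336 / 5) * s + (31196 / 25) * b * m -
          (448 / 5) * b * s + (1104 / 5) * b ^ 2 - (1988 / 25) * m * s + (4368 / 5) * m ^ 2 + (28
          / 5) * s ^ 2 - (1386 / 25) * b * m * s + (6524 / 5) * b * m ^ 2 + (14256 / 25) * b ^ 2 *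
          m - (546 / 25) * m * s ^ 2 + 140 * m ^ 2 * s - (26208 / 25) * m ^ 3 + (1378 / 5) * b * m
          ^ 2 * s + (18588 / 25) * b * m ^ 3 + (2316 / 5) * b ^ 2 * m ^ 2 - (238 / 5) * m ^ 2 * s
          ^ 2 + (3276 / 25) * m ^ 3 * s - (5376 / 5) * m ^ 4 + (9382 / 25) * b * m ^ 3 * s + (1588
          / 5) * b * m ^ 4 + (2208 / 25) * b ^ 2 * m ^ 3 + (182 / 25) * m ^ 3 * s ^ 2 - (364 / 5)
          * m ^ 4 * s - (5376 / 25) * m ^ 5 + 150 * b * m ^ 4 * s + (1816 / 25) * b * m ^ 5 - 36 *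
          b ^ 2 * m ^ 4 + 42 * m ^ 4 * s ^ 2 - (1288 / 25) * m ^ 5 * s + (404 / 25) * b * m ^ 5 *
          s - (264 / 25) * b ^ 2 * m ^ 5 + (364 / 25) * m ^ 5 * s ^ 2) / ((2 * m + 3) * (m + 2) ^
          2 * (2 * m + 5)) =
      (4956 - 1416 * b - 3192 * m + 798 * s - 1428 * b * m - 132 * b * s + 72 * b ^ 2 + 132 * m *
          s - 1644 * m ^ 2 + 36 * s ^ 2 - 240 * b * m * s + 12 * b * m ^ 2 + 144 * b ^ 2 * m + 36
          * m * s ^ 2 - 798 * m ^ 2 * s - 120 * m ^ 3 - 84 * b * m ^ 2 * s + 24 * b * m ^ 3 + 72 *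
          b ^ 2 * m ^ 2 - 36 * m ^ 2 * s ^ 2 - 132 * m ^ 3 * s + 24 * b * m ^ 3 * s - 36 * m ^ 3 *
          s ^ 2) / ((m + 2) * (2 * m + 5)) := by
  have e0 : (2 * m + 3 : ℝ) ≠ 0 := by linarith
  have e1 : (m + 2 : ℝ) ≠ 0 := by linarith
  have e2 : (2 * m + 5 : ℝ) ≠ 0 := by linarith
  field_simp
  ring

/-- the quadratic form on the four dimensional space, in closed form -/
theorem qT_H (hm : 2 ≤ m)
    (h : Rc (4 * m) 3 lam (s - b) a2 a3 a4 b b2 b3 b4 c2 c3 c5 w1 v1 w3 v3)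
    (α1 α2 α3 α4 : ℝ) :
    qT (4 * m - 4) 3 (s - b) a2 a3 a4 b b2 b3 b4 c2 c3 c5 w1 v1 w3 v3 α1 α2 α3 α4 =
      α1 ^ 2 * ((-192 * b + 240 * s + 240 * b * m - 96 * b * s - 192 * m * s + 56 * s ^ 2 - 96 * b
          * m * s - 48 * m ^ 2 * s - 56 * m ^ 2 * s ^ 2) / ((2 * m + 3))) + α1 * α2 * ((-240 * b +
          192 * s + 48 * b * m + 24 * b * s - 96 * m * s + 16 * s ^ 2 + 24 * b * m * s - 96 * m ^
          2 * s - 16 * m ^ 2 * s ^ 2) / ((2 * m + 3))) + α2 ^ 2 * ((-12 * b + 24 * s + 24 * b * m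
          - 24 * b * s - 24 * m * s + 8 * s ^ 2 - 24 * b * m * s - 8 * m ^ 2 * s ^ 2) / ((2 * m +
          3))) + α1 * (-8 * s + 8 * m * s) + α2 * (-32 - 36 * b + 32 * m + 8 * s - 8 * m * s) + (s
          - b) * a2 * (α1 * α3 * ((-144 - 12 * b + 96 * m - 8 * s - 12 * b * m + 48 * m ^ 2 + 8 *
          m ^ 2 * s) / ((m + 2))) + α1 * α4 * ((-(4032 / 5) + (216 / 5) * b + 576 * m - (288 / 5)
          * s + (1152 / 5) * m ^ 2 - (216 / 5) * b * m ^ 2 + (288 / 5) * m ^ 2 * s) / ((m + 2))) +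
          α2 * α3 * ((-48 + 24 * b + 48 * m - 8 * s + 24 * b * m + 8 * m ^ 2 * s) / ((m + 2))) +
          α2 * α4 * ((-(1344 / 5) + (72 / 5) * b + 192 * m - (96 / 5) * s + (384 / 5) * m ^ 2 -
          (72 / 5) * b * m ^ 2 + (96 / 5) * m ^ 2 * s) / ((m + 2))) + α3 ^ 2 * ((4956 - 1416 * b -
          3192 * m + 798 * s - 1428 * b * m - 132 * b * s + 72 * b ^ 2 + 132 * m * s - 1644 * m ^
          2 + 36 * s ^ 2 - 240 * b * m * s + 12 * b * m ^ 2 + 144 * b ^ 2 * m + 36 * m * s ^ 2 -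
          798 * m ^ 2 * s - 120 * m ^ 3 - 84 * b * m ^ 2 * s + 24 * b * m ^ 3 + 72 * b ^ 2 * m ^ 2
          - 36 * m ^ 2 * s ^ 2 - 132 * m ^ 3 * s + 24 * b * m ^ 3 * s - 36 * m ^ 3 * s ^ 2) / ((m
          + 2) * (2 * m + 5))) + α3 * α4 * (((249984 / 5) - (13392 / 5) * b - (122112 / 5) * m +
          (29952 / 5) * s + 1008 * b * m - (648 / 5) * b * s + (7488 / 5) * m * s - (111744 / 5) *
          m ^ 2 + (864 / 5) * s ^ 2 - (72 / 5) * b * m * s + 4752 * b * m ^ 2 - (432 / 5) * b ^ 2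
          * m + (864 / 5) * m * s ^ 2 - (29952 / 5) * m ^ 2 * s - (16128 / 5) * m ^ 3 + 360 * b *
          m ^ 2 * s + (5328 / 5) * b * m ^ 3 - (864 / 5) * b ^ 2 * m ^ 2 - (864 / 5) * m ^ 2 * s ^
          2 - (7488 / 5) * m ^ 3 * s + (1224 / 5) * b * m ^ 3 * s - (432 / 5) * b ^ 2 * m ^ 3 -
          (864 / 5) * m ^ 3 * s ^ 2) / ((m + 2) * (2 * m + 5))) + α4 ^ 2 * (((3257856 / 25) -
          (291456 / 25) * b - (1609344 / 25) * m + (395328 / 25) * s - (92016 / 25) * b * m -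
          (17064 / 25) * b * s + (6264 / 25) * b ^ 2 + (97728 / 25) * m * s - (1443456 / 25) * m ^
          2 + (11616 / 25) * s ^ 2 - (18504 / 25) * b * m * s + (265536 / 25) * b * m ^ 2 + (7344
          / 25) * b ^ 2 * m + (11616 / 25) * m * s ^ 2 - (395328 / 25) * m ^ 2 * s - (205056 / 25)
          * m ^ 3 + (14184 / 25) * b * m ^ 2 * s + (66096 / 25) * b * m ^ 3 - (4104 / 25) * b ^ 2
          * m ^ 2 - (11616 / 25) * m ^ 2 * s ^ 2 - (97728 / 25) * m ^ 3 * s + (15624 / 25) * b * m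
          ^ 3 * s - (5184 / 25) * b ^ 2 * m ^ 3 - (11616 / 25) * m ^ 3 * s ^ 2) / ((m + 2) * (2 *
          m + 5)))) := by
  have hc := h_c2' hm h
  unfold qT
  rw [hc]
  linear_combination α1 ^ 2 * j_20 hm h + α1 * α2 * j_11 hm h + α2 ^ 2 * j_02 hm h + (s - b) * a2
      * (α1 * α3 * j_13 hm h + α1 * α4 * j_14 hm h + α2 * α3 * j_23 hm h + α2 * α4 * j_24 hm h +
      α3 ^ 2 * (j_33r hm h + j_33 (s := s) (b := b) hm) + α3 * α4 * j_34 hm h + α4 ^ 2 * j_44 hm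
      h) - α3 ^ 2 * h_z3 hm h

end H

end Vale.Agent.P207.H639
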