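import Vale.Agent.P207.H639.Gram4

/-!
# P207: the certificate for `H^m` (coefficients found by helper871)
-/

noncomputable section

namespace Vale.Agent.P207.H639

/-- the certificate: numerator with nonnegative coefficients -/
def cP (μ b τ : ℝ) : ℝ :=
    (19248516 / 625) + (5427603747 / 2500) * b + (33837669 / 625) * μ + (9163162449 / 25000) * τ +
        (5003145027 / 2500) * b * μ + (8805376269 / 6250) * b * τ + (2056742721 / 1000) * b ^ 2 +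
        (7783902927 / 12500) * μ * τ + (18255537 / 625) * μ ^ 2 + (88265711079 / 500000) * τ ^ 2 +
        (9804636441 / 6250) * b * μ * τ + (839995389 / 1250) * b * μ ^ 2 + (11185765497 / 40000) *
        b * τ ^ 2 + (9657821667 / 5000) * b ^ 2 * μ + (73304530929 / 100000) * b ^ 2 * τ +
        (1413570573 / 2500) * b ^ 3 + (150567730089 / 500000) * μ * τ ^ 2 + (7881736887 / 25000) *
        μ ^ 2 * τ + (3971916 / 625) * μ ^ 3 + (28590572871 / 1000000) * τ ^ 3 + (346278346707 /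
        1000000) * b * μ * τ ^ 2 + (1969425801 / 3125) * b * μ ^ 2 * τ + (60091263 / 625) * b * μ
        ^ 3 + (174768543 / 10000) * b * τ ^ 3 + (19353258501 / 25000) * b ^ 2 * μ * τ + (418294392
        / 625) * b ^ 2 * μ ^ 2 + (31788794331 / 500000) * b ^ 2 * τ ^ 2 + (337817242 / 625) * b ^
        3 * μ + (2355011199 / 25000) * b ^ 3 * τ + (31546719 / 625) * b ^ 4 + (48948043079 /
        1000000) * μ * τ ^ 3 + (76815727107 / 500000) * μ ^ 2 * τ ^ 2 + (794322369 / 12500) * μ ^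
        3 * τ + (305532 / 625) * μ ^ 4 + (767281599 / 500000) * τ ^ 4 + (2331192003 / 100000) * b
        * μ * τ ^ 3 + (6013017921 / 40000) * b * μ ^ 2 * τ ^ 2 + (339835077 / 3125) * b * μ ^ 3 *
        τ + (3014046 / 625) * b * μ ^ 4 + (36878200137 / 500000) * b ^ 2 * μ * τ ^ 2 +
        (29922817029 / 100000) * b ^ 2 * μ ^ 2 * τ + (125987757 / 1250) * b ^ 2 * μ ^ 3 +
        (2485891221 / 25000) * b ^ 3 * μ * τ + (479324977 / 2500) * b ^ 3 * μ ^ 2 + (30885177 /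
        625) * b ^ 4 * μ + (658571349 / 250000) * μ * τ ^ 4 + (25150478723 / 1000000) * μ ^ 2 * τ
        ^ 3 + (15618277983 / 500000) * μ ^ 3 * τ ^ 2 + (13943907 / 3125) * μ ^ 4 * τ + (1060458583
        / 100000) * b * μ ^ 2 * τ ^ 3 + (27666652881 / 1000000) * b * μ ^ 3 * τ ^ 2 + (21200562 /
        3125) * b * μ ^ 4 * τ + (15315992583 / 500000) * b ^ 2 * μ ^ 2 * τ ^ 2 + (2511795663 /
        50000) * b ^ 2 * μ ^ 3 * τ + (3443286 / 625) * b ^ 2 * μ ^ 4 + (192543791 / 5000) * b ^ 3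
        * μ ^ 2 * τ + (37269979 / 1250) * b ^ 3 * μ ^ 3 + (11263631 / 625) * b ^ 4 * μ ^ 2 +
        (85078079 / 62500) * μ ^ 2 * τ ^ 4 + (5161235881 / 1000000) * μ ^ 3 * τ ^ 3 + (552284943 /
        250000) * μ ^ 4 * τ ^ 2 + (202328081 / 100000) * b * μ ^ 3 * τ ^ 3 + (914861409 / 500000)
        * b * μ ^ 4 * τ ^ 2 + (546335871 / 100000) * b ^ 2 * μ ^ 3 * τ ^ 2 + (38512413 / 12500) *
        b ^ 2 * μ ^ 4 * τ + (162476111 / 25000) * b ^ 3 * μ ^ 3 * τ + (1066046 / 625) * b ^ 3 * μ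
        ^ 4 + (1810783 / 625) * b ^ 4 * μ ^ 3 + (14090687 / 50000) * μ ^ 3 * τ ^ 4 + (184113683 /
        500000) * μ ^ 4 * τ ^ 3 + (13793599 / 100000) * b * μ ^ 4 * τ ^ 3 + (88460589 / 250000) *
        b ^ 2 * μ ^ 4 * τ ^ 2 + (5033993 / 12500) * b ^ 3 * μ ^ 4 * τ + (107954 / 625) * b ^ 4 * μ
        ^ 4 + (10143337 / 500000) * μ ^ 4 * τ ^ 4

theorem cP_pos {μ b τ : ℝ} (hμ : 0 ≤ μ) (hb : 0 ≤ b) (hτ : 0 ≤ τ) : 0 < cP μ b τ := by
  unfold cP
  positivity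

section H

variable {m s b lam a2 a3 a4 b2 b3 b4 c2 c3 c5 w1 v1 w3 v3 : ℝ}

/-- `S₁ - e/20` in closed form -/
theorem cert_eq (hm : 2 ≤ m)
    (h : Rc (4 * m) 3 lam (s - b) a2 a3 a4 b b2 b3 b4 c2 c3 c5 w1 v1 w3 v3)
    (hs : 0 < s) :
    qT (4 * m - 4) 3 (s - b) a2 a3 a4 b b2 b3 b4 c2 c3 c5 w1 v1 w3 v3 (1 / (2 * s)) (-7 / (4 * s))
        (-3 / (8 * s ^ 2)) (7 / (100 * s ^ 2)) -
      (4 * m - 4) - (4 * m - 4) / 20 =
    cP (m - 2) b (s - 6 - 2 * b) / ((2 * m + 3) * (m + 2) * (2 * m + 5) * s ^ 4) := by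
  have e0 : (2 * m + 3 : ℝ) ≠ 0 := by linarith
  have e1 : (m + 2 : ℝ) ≠ 0 := by linarith
  have e2 : (2 * m + 5 : ℝ) ≠ 0 := by linarith
  have e3 : s ≠ 0 := hs.ne'
  rw [qT_H hm h, h_a2 hm h]
  unfold cP
  field_simp
  ring

/-- the certificate -/
theorem cert_H (hm : 2 ≤ m)
    (h : Rc (4 * m) 3 lam (s - b) a2 a3 a4 b b2 b3 b4 c2 c3 c5 w1 v1 w3 v3)
    (hb : 0 ≤ b) (hs : 6 + 2 * b ≤ s) :
    (4 * m - 4) / 20 + (4 * m - 4) <
      qT (4 * m - 4) 3 (s - b) a2 a3 a4 b b2 b3 b4 c2 c3 c5 w1 v1 w3 v3 (1 / (2 * s)) (-7 / (4 *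
          s)) (-3 / (8 * s ^ 2)) (7 / (100 * s ^ 2)) := by
  have hs0 : 0 < s := by linarith
  have h1 := cert_eq hm h hs0
  have h2 := cP_pos (μ := m - 2) (b := b) (τ := s - 6 - 2 * b) (by linarith) hb (by linarith)
  have h3 : 0 < cP (m - 2) b (s - 6 - 2 * b) / ((2 * m + 3) * (m + 2) * (2 * m + 5) * s ^ 4) := by
    apply div_pos h2
    have : 0 < m := by linarith
    positivity
  linarith

end H

end Vale.Agent.P207.H639
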