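import Vale.Agent.P207.H639.Gram5
import Vale.Agent.P207.H468.Bridge

/-!
# P207: helper468's tower gives `Tw`, `Nr`, `Rc`
-/

noncomputable section

namespace Vale.Agent.P207.H639

open Vale.Agent.P207
open Vale.Agent.P207.H468 (ofLad ev pr up dn)
open Vale.Agent.P207.H468.Lad (alN beN ell)

section rel

variable {n N L p α β : ℝ}

theorem al_rel (h1 : 2 * p + n ≠ 0) :
    (2 * p + n) * (alN n N L p α β + β) = L + 2 * ev n p + 6 * ev N p + (2 * p + n - 4) * α := by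
  unfold alN
  field_simp
  ring

theorem be_rel (h2 : 2 * p + 2 + n ≠ 0) (h3 : 2 * p + N ≠ 0) :
    3 * (2 * p + N) * beN n N L p α β =
      (2 * p + 2 + N) * (alN n N L (p + 1) (alN n N L p α β) (beN n N L p α β) +
        beN n N L p α β)
      - (2 * p + N - 2) * alN n N L p α β - 8 * ev N (p + 1)
      - ((2 * p + N) * alN n N L p α β - (2 * p + N - 4) * (β + α) - 8 * ev N p)
      + (2 * p + N - 4) * ((2 * p + n - 2) / (2 * p + n + 2)) * β := by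
  have h4 : alN n N L (p + 1) (alN n N L p α β) (beN n N L p α β) + beN n N L p α β =
      (L + 2 * ev n (p + 1) + 6 * ev N (p + 1)
      + (2 * p + n - 2) * alN n N L p α β) / (2 * p + 2 + n) := by
    have h5 : 2 * (p + 1) + n = 2 * p + 2 + n := by ring
    rw [eq_div_iff h2]
    have h6 := al_rel (n := n) (N := N) (L := L) (p := p + 1) (α := alN n N L p α β)
      (β := beN n N L p α β) (by rw [h5]; exact h2)
    rw [h5] at h6
    rw [mul_comm, h6]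
    ring
  rw [h4]
  have h7 : 3 * (2 * p + N) ≠ 0 := mul_ne_zero three_ne_zero h3
  unfold beN
  rw [mul_div_cancel₀ _ h7]
  unfold ell
  ring

end rel

section stage

variable {V : Type*} [AddCommGroup V] [Module ℝ V] {n N : ℝ} {S : H468.Lad V n N}
  {lam p α β βm : ℝ} {x xm ym : V}

theorem X_x (T : H468.Lad.Tw S lam p α β βm x xm ym) :
    S.X x = S.pp p p x + S.pm p p x - α • xm := by
  have h1 := T.pos1
  have h2 := T.pos2
  rw [H468.Lad.X_eq (p := p) (q := p) (by intro h; linarith) (by intro h; linarith) x, T.x_mp,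
    T.x_mm]
  module

theorem X_y (T : H468.Lad.Tw S lam p α β βm x xm ym) :
    S.X (S.pm p p x) = S.pp (p + 1) (p - 1) (S.pm p p x) + S.pm (p + 1) (p - 1) (S.pm p p x)
      - β • x - ((2 * p + n - 4) / (2 * p + n) * α) • ym := by
  have h1 := T.hp
  have h2 := S.hn
  have h3 := S.hN
  rw [H468.Lad.X_eq (p := p + 1) (q := p - 1) (by intro h; linarith) (by intro h; linarith)
    (S.pm p p x), T.bb, T.yp_mm]
  module

end stage

variable {W : Type*} [AddCommGroup W] [Module ℝ W] {L : H662.Lad W}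

theorem ty_of (hd : 2 ≤ L.d) (he : 0 ≤ L.e) {p q p' q' : ℝ} {f : W}
    (h : (ofLad L hd he).Ty p q f) (hp : p = p') (hq : q = q') : f ∈ Ty L p' q' := by
  subst hp; subst hq
  have h1 : L.D f = ev (Low.dim L) p • f := h.1
  have h2 : L.L2.Δ f = ev (L.d + 1) q • f := h.2
  refine ⟨?_, ?_⟩
  · rw [h1]; unfold ev Low.dim; congr 1; ring
  · rw [h2]; unfold ev; congr 1; ring

/-- submodules stable under the ladder operators are stable under the components of `X` -/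
theorem pp_mem (hd : 2 ≤ L.d) (he : 0 ≤ L.e) {M : Submodule ℝ W} (hM : Low.Stable L M) (p q : ℝ)
    {u : W} (hu : u ∈ M) : (ofLad L hd he).pp p q u ∈ M := by
  have hX : L.X u ∈ M := hM.X u hu
  have hD : ∀ v ∈ M, L.D v ∈ M := fun v hv => by
    rw [H662.Lad.D_apply]; exact M.add_mem (hM.Δ1 v hv) (hM.Δ2 v hv)
  have h1 : up L.X L.D (Low.dim L) p u ∈ M := by
    show pr L.D _ _ (L.X u) ∈ M
    rw [H468.pr_apply]
    exact M.smul_mem _ (M.sub_mem (hD _ hX) (M.smul_mem _ hX))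
  show pr L.L2.Δ _ _ (up L.X L.D (Low.dim L) p u) ∈ M
  rw [H468.pr_apply]
  exact M.smul_mem _ (M.sub_mem (hM.Δ2 _ h1) (M.smul_mem _ h1))

/-- the tower over a divergence free joint eigenvector `h` of type `(2,2)` -/
theorem exists_tower (hd : 2 ≤ L.d) (he : 0 < L.e) {lam b : ℝ} {h : W} (hh : Low.TT L h)
    (hlam : L.Lam h = lam • h)
    (hb : (ofLad L hd he.le).mp 3 1 ((ofLad L hd he.le).pm 2 2 h) = -b • h)
    (h0 : 0 < L.ip h h) :
    ∃ (T : Tw L) (a4 b2 b4 c3 c5 w1 v1 w3 v3 : ℝ), T.x0 = h ∧ T.b1 = b ∧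
      Nr T a4 b2 b4 c3 c5 w1 v1 w3 v3 ∧
      Rc (Low.dim L) L.d lam T.a1 T.a2 T.a3 a4 T.b1 b2 T.b3 b4 T.c2 c3 c5 w1 v1 w3 v3 ∧
      T.x2 ∈ Low.Mod L {h} ∧ T.x3 ∈ Low.Mod L {h} := by
  obtain ⟨S, hS⟩ : ∃ S, S = ofLad L hd he.le := ⟨_, rfl⟩
  rw [← hS] at hb
  obtain ⟨n, hn⟩ : ∃ n, n = Low.dim L := ⟨_, rfl⟩
  obtain ⟨N, hN⟩ : ∃ N, N = L.d + 1 := ⟨_, rfl⟩
  have hn3 : 3 ≤ n := by rw [hn]; unfold Low.dim; linarith
  have hN3 : 3 ≤ N := by rw [hN]; linarith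
  have T0 : H468.Lad.Tw S lam 2 0 b 0 h 0 0 := by
    rw [hS]
    refine H468.Lad.tw_base ((H468.ofLad_Ty hd he.le).2 hh.typ) hh.div ?_ (by rw [← hS]; exact hb)
    rw [H468.ofLad_Lam]; exact hlam
  obtain ⟨a1, ha1⟩ : ∃ a1, a1 = alN (Low.dim L) (L.d + 1) lam 2 0 b := ⟨_, rfl⟩
  obtain ⟨b2, hb2⟩ : ∃ b2, b2 = beN (Low.dim L) (L.d + 1) lam 2 0 b := ⟨_, rfl⟩
  obtain ⟨x1, hx1⟩ : ∃ x1, x1 = S.pp 2 2 h := ⟨_, rfl⟩
  obtain ⟨y1, hy1⟩ : ∃ y1, y1 = S.pm 2 2 h := ⟨_, rfl⟩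
  have T1 : H468.Lad.Tw S lam 3 a1 b2 b x1 h y1 := by
    rw [ha1, hb2, hx1, hy1]
    have := T0.step
    have e : (2 : ℝ) + 1 = 3 := by norm_num
    rwa [e] at this
  obtain ⟨a2, ha2⟩ : ∃ a2, a2 = alN (Low.dim L) (L.d + 1) lam 3 a1 b2 := ⟨_, rfl⟩
  obtain ⟨b3, hb3⟩ : ∃ b3, b3 = beN (Low.dim L) (L.d + 1) lam 3 a1 b2 := ⟨_, rfl⟩
  obtain ⟨x2, hx2⟩ : ∃ x2, x2 = S.pp 3 3 x1 := ⟨_, rfl⟩
  obtain ⟨y2, hy2⟩ : ∃ y2, y2 = S.pm 3 3 x1 := ⟨_, rfl⟩
  have T2 : H468.Lad.Tw S lam 4 a2 b3 b2 x2 x1 y2 := by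
    rw [ha2, hb3, hx2, hy2]
    have := T1.step
    have e : (3 : ℝ) + 1 = 4 := by norm_num
    rwa [e] at this
  obtain ⟨a3, ha3⟩ : ∃ a3, a3 = alN (Low.dim L) (L.d + 1) lam 4 a2 b3 := ⟨_, rfl⟩
  obtain ⟨b4, hb4⟩ : ∃ b4, b4 = beN (Low.dim L) (L.d + 1) lam 4 a2 b3 := ⟨_, rfl⟩
  obtain ⟨x3, hx3⟩ : ∃ x3, x3 = S.pp 4 4 x2 := ⟨_, rfl⟩
  obtain ⟨y3, hy3⟩ : ∃ y3, y3 = S.pm 4 4 x2 := ⟨_, rfl⟩
  have T3 : H468.Lad.Tw S lam 5 a3 b4 b3 x3 x2 y3 := by
    rw [ha3, hb4, hx3, hy3]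
    have := T2.step
    have e : (4 : ℝ) + 1 = 5 := by norm_num
    rwa [e] at this
  have hX : ∀ f, L.X f = S.X f := by rw [hS]; exact fun _ => rfl
  have hip : ∀ f g, L.ip f g = S.ip f g := by rw [hS]; exact fun _ _ => rfl
  have hTy : ∀ {p q p' q' : ℝ} {f : W}, S.Ty p q f → p = p' → q = q' → f ∈ Ty L p' q' := by
    rw [hS]; exact fun h1 h2 h3 => ty_of hd he.le h1 h2 h3
  have X0 : L.X h = x1 + y1 := by
    rw [hX, X_x T0, hx1, hy1]; module
  have X1 : L.X x1 = x2 + y2 - a1 • h := by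
    rw [hX, X_x T1, hx2, hy2]
  have X2 : L.X x2 = x3 + y3 - a2 • x1 := by
    rw [hX, X_x T2, hx3, hy3]
  have X3 : L.X x3 = S.pp 5 5 x3 + S.pm 5 5 x3 - a3 • x2 := by
    rw [hX, X_x T3]
  have Y1 : L.X y1 = S.pp 3 1 y1 + S.pm 3 1 y1 - b • h := by
    have e1 : (2 : ℝ) + 1 = 3 := by norm_num
    have e2 : (2 : ℝ) - 1 = 1 := by norm_num
    have h1 := X_y T0
    rw [e1, e2, ← hy1] at h1
    rw [hX, h1]; module
  have Y3 : L.X y3 = S.pp 5 3 y3 + S.pm 5 3 y3 - b3 • x2 -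
      ((Low.dim L + 4) / (Low.dim L + 8) * a2) • y2 := by
    have e1 : (4 : ℝ) + 1 = 5 := by norm_num
    have e2 : (4 : ℝ) - 1 = 3 := by norm_num
    have h1 := X_y T2
    rw [e1, e2, ← hy3] at h1
    rw [hX, h1]
    congr 3
    ring
  have tx0 : h ∈ Ty L 2 2 := hTy T0.tx rfl rfl
  have tx1 : x1 ∈ Ty L 3 3 := hTy T1.tx rfl rfl
  have tx2 : x2 ∈ Ty L 4 4 := hTy T2.tx rfl rfl
  have tx3 : x3 ∈ Ty L 5 5 := hTy T3.tx rfl rfl
  have tx4 : S.pp 5 5 x3 ∈ Ty L 6 6 := hTy (H468.Lad.ty_pp T3.tx) (by norm_num) (by norm_num)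
  have ty1 : S.Ty 3 1 y1 := by
    rw [hy1]; exact (H468.Lad.ty_pm T0.tx).cast (by norm_num) (by norm_num)
  have ty3 : S.Ty 5 3 y3 := by
    rw [hy3]; exact (H468.Lad.ty_pm T2.tx).cast (by norm_num) (by norm_num)
  have ty2 : y2 ∈ Ty L 4 2 := by
    rw [hy2]; exact hTy (H468.Lad.ty_pm T1.tx) (by norm_num) (by norm_num)
  have ty4 : S.pm 5 5 x3 ∈ Ty L 6 4 := hTy (H468.Lad.ty_pm T3.tx) (by norm_num) (by norm_num)
  have tw1 : S.pp 3 1 y1 ∈ Ty L 4 2 := hTy (H468.Lad.ty_pp ty1) (by norm_num) (by norm_num)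
  have tv1 : S.pm 3 1 y1 ∈ Ty L 4 0 := hTy (H468.Lad.ty_pm ty1) (by norm_num) (by norm_num)
  have tw3 : S.pp 5 3 y3 ∈ Ty L 6 4 := hTy (H468.Lad.ty_pp ty3) (by norm_num) (by norm_num)
  have tv3 : S.pm 5 3 y3 ∈ Ty L 6 2 := hTy (H468.Lad.ty_pm ty3) (by norm_num) (by norm_num)
  let T : Tw L := ⟨h, x1, x2, x3, S.pp 5 5 x3, y1, y2, y3, S.pm 5 5 x3, S.pp 3 1 y1, S.pm 3 1 y1,
    S.pp 5 3 y3, S.pm 5 3 y3, a1, a2, a3, b, b3, (Low.dim L + 4) / (Low.dim L + 8) * a2,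
    X0, X1, X2, X3, Y1, Y3, tx0, tx1, tx2, tx3, tx4, hTy ty1 rfl rfl, ty2, hTy ty3 rfl rfl, ty4,
    tw1, tv1, tw3, tv3⟩
  have hd0 : 0 < L.d := by linarith
  have e21 : (2 : ℝ) + 1 = 3 := by norm_num
  have e22 : (2 : ℝ) - 1 = 1 := by norm_num
  have e31 : (3 : ℝ) + 1 = 4 := by norm_num
  have e41 : (4 : ℝ) + 1 = 5 := by norm_num
  have e42 : (4 : ℝ) - 1 = 3 := by norm_num
  have k1 : L.ip x1 x1 = a1 * L.ip h h := T.n_x1 he hd0
  have k2 : L.ip x2 x2 = a2 * (a1 * L.ip h h) := T.n_x2 he hd0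
  have k3 : L.ip x3 x3 = a3 * (a2 * (a1 * L.ip h h)) := T.n_x3 he hd0
  refine ⟨T, alN (Low.dim L) (L.d + 1) lam 5 a3 b4, b2, b4, (Low.dim L + 2) / (Low.dim L + 6),
    (Low.dim L + 6) / (Low.dim L + 10), L.ip (S.pp 3 1 y1) (S.pp 3 1 y1) / L.ip h h,
    L.ip (S.pm 3 1 y1) (S.pm 3 1 y1) / L.ip h h, L.ip (S.pp 5 3 y3) (S.pp 5 3 y3) / L.ip h h,
    L.ip (S.pm 5 3 y3) (S.pm 5 3 y3) / L.ip h h, rfl, rfl, ?_, ?_, ?_, ?_⟩
  · refine ⟨?_, ?_, ?_, ?_, ?_, ?_, ?_, ?_, ?_⟩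
    · show L.ip (S.pp 5 5 x3) (S.pp 5 5 x3) = _ * (a3 * (a2 * (a1 * L.ip h h)))
      rw [hip, T3.inner_pp T3, ← hip, k3]
    · show L.ip y2 y2 = b2 * (a1 * L.ip h h)
      rw [hip, hy2, T1.inner_pm T1, ← hip, k1]
    · show L.ip (S.pm 5 5 x3) (S.pm 5 5 x3) = b4 * (a3 * (a2 * (a1 * L.ip h h)))
      rw [hip, T3.inner_pm T3, ← hip, k3]
    · show L.ip y2 (S.pp 3 1 y1) = _ * (a1 * (b * L.ip h h))
      have h1 := T0.inner_yw T0
      rw [e21, e22, ← hx1, ← hy1, ← hy2, ← ha1, ← hip, ← hip] at h1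
      rw [h1]; ring
    · show L.ip (S.pm 5 5 x3) (S.pp 5 3 y3) = _ * (a3 * (b3 * (a2 * (a1 * L.ip h h))))
      have h1 := T2.inner_yw T2
      rw [e41, e42, ← hx3, ← hy3, ← ha3, ← hip, ← hip, k2] at h1
      rw [h1]; ring
    · exact (div_mul_cancel₀ _ h0.ne').symm
    · exact (div_mul_cancel₀ _ h0.ne').symm
    · exact (div_mul_cancel₀ _ h0.ne').symm
    · exact (div_mul_cancel₀ _ h0.ne').symm
  · have hm : 3 ≤ Low.dim L := by unfold Low.dim; linarith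
    have q0 : Low.dim L + 4 ≠ 0 := by intro h; linarith
    have q1 : Low.dim L + 6 ≠ 0 := by intro h; linarith
    have q2 : Low.dim L + 8 ≠ 0 := by intro h; linarith
    have q3 : Low.dim L + 10 ≠ 0 := by intro h; linarith
    refine ⟨?_, ?_, ?_, ?_, ?_, ?_, ?_, ?_, ?_, ?_, ?_, ?_, ?_, ?_⟩
    · show (Low.dim L + 4) / (Low.dim L + 8) * a2 * (Low.dim L + 8) = (Low.dim L + 4) * a2
      field_simp
    · exact div_mul_cancel₀ _ q1
    · exact div_mul_cancel₀ _ q3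
    · show (Low.dim L + 4) * (a1 + b) = lam + 2 * kap (Low.dim L) L.d 2 2
      have h1 := al_rel (n := Low.dim L) (N := L.d + 1) (L := lam) (p := 2) (α := 0) (β := b)
        (by intro h; linarith)
      rw [← ha1] at h1
      unfold ev at h1; unfold kap
      linear_combination h1
    · show (Low.dim L + 6) * (a2 + b2) = lam + 2 * kap (Low.dim L) L.d 3 3 +
        (Low.dim L + 2) * a1
      have h1 := al_rel (n := Low.dim L) (N := L.d + 1) (L := lam) (p := 3) (α := a1) (β := b2)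
        (by intro h; linarith)
      rw [← ha2] at h1
      unfold ev at h1; unfold kap
      linear_combination h1
    · show (Low.dim L + 8) * (a3 + b3) = lam + 2 * kap (Low.dim L) L.d 4 4 +
        (Low.dim L + 4) * a2
      have h1 := al_rel (n := Low.dim L) (N := L.d + 1) (L := lam) (p := 4) (α := a2) (β := b3)
        (by intro h; linarith)
      rw [← ha3] at h1
      unfold ev at h1; unfold kap
      linear_combination h1
    · show (Low.dim L + 10) * (_ + b4) = lam + 2 * kap (Low.dim L) L.d 5 5 +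
        (Low.dim L + 6) * a3
      have h1 := al_rel (n := Low.dim L) (N := L.d + 1) (L := lam) (p := 5) (α := a3) (β := b4)
        (by intro h; linarith)
      unfold ev at h1; unfold kap
      linear_combination h1
    · show (2 * L.d + 14) * a2 - 4 * (L.d + 4) * b2 = 16 * (L.d + 4) + 4 * (L.d + 4) * a1
        - (2 * L.d + 2) * ((1 + (Low.dim L + 2) / (Low.dim L + 6)) * b)
      have h1 := be_rel (n := Low.dim L) (N := L.d + 1) (L := lam) (p := 2) (α := 0) (β := b)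
        (by intro h; linarith) (by intro h; linarith)
      rw [← ha1, ← hb2, e21, ← ha2] at h1
      have h2 : (2 * 2 + Low.dim L - 2) / (2 * 2 + Low.dim L + 2) =
        (Low.dim L + 2) / (Low.dim L + 6) := by congr 1 <;> ring
      rw [h2] at h1
      unfold ev at h1
      linear_combination -2 * h1
    · show (Low.dim L + 8) * ((2 * L.d + 18) * a3 - 4 * (L.d + 6) * b3) =
        (Low.dim L + 8) * (16 * (L.d + 6) + 4 * (L.d + 6) * a2 - (2 * L.d + 6) * (a1 + b2))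
        - (2 * L.d + 6) * ((Low.dim L + 4) * b2)
      have h1 := be_rel (n := Low.dim L) (N := L.d + 1) (L := lam) (p := 3) (α := a1) (β := b2)
        (by intro h; linarith) (by intro h; linarith)
      rw [← ha2, ← hb3, e31, ← ha3] at h1
      have h2 : (2 * 3 + Low.dim L - 2) / (2 * 3 + Low.dim L + 2) =
        (Low.dim L + 4) / (Low.dim L + 8) := by congr 1 <;> ring
      rw [h2] at h1
      unfold ev at h1
      have h3 : (Low.dim L + 4) / (Low.dim L + 8) * (Low.dim L + 8) = Low.dim L + 4 :=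
        div_mul_cancel₀ _ q2
      linear_combination -2 * (Low.dim L + 8) * h1 - (2 * L.d + 6) * b2 * h3
    · show (2 * L.d + 22) * _ - 4 * (L.d + 8) * b4 = 16 * (L.d + 8) + 4 * (L.d + 8) * a3
        - (2 * L.d + 10) * (a2 + (1 + (Low.dim L + 6) / (Low.dim L + 10)) * b3)
      have h1 := be_rel (n := Low.dim L) (N := L.d + 1) (L := lam) (p := 4) (α := a2) (β := b3)
        (by intro h; linarith) (by intro h; linarith)
      rw [← ha3, ← hb4, e41] at h1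
      have h2 : (2 * 4 + Low.dim L - 2) / (2 * 4 + Low.dim L + 2) =
        (Low.dim L + 6) / (Low.dim L + 10) := by congr 1 <;> ring
      rw [h2] at h1
      unfold ev at h1
      linear_combination -2 * h1
    · show (Low.dim L + 6) * (L.ip (S.pp 3 1 y1) (S.pp 3 1 y1) / L.ip h h +
        L.ip (S.pm 3 1 y1) (S.pm 3 1 y1) / L.ip h h) =
        (lam + 2 * kap (Low.dim L) L.d 3 1) * b + (Low.dim L + 2) * b ^ 2
      have h1 := T0.inner_R T0
      rw [e21, e22, ← hy1, ← hip, ← hip, ← hip] at h1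
      rw [← add_div, ← mul_div_assoc, div_eq_iff h0.ne']
      unfold ev at h1; unfold kap
      linear_combination h1
    · show ((L.d + 5) * a1 - (L.d + 1) * b - 16 * (L.d + 1)) * b +
        (L.d + 5) * ((Low.dim L + 2) / (Low.dim L + 6) * (a1 * b)) -
        (L.d + 1) * (L.ip (S.pp 3 1 y1) (S.pp 3 1 y1) / L.ip h h) =
        (L.d + 3) * (L.ip (S.pp 3 1 y1) (S.pp 3 1 y1) / L.ip h h + b ^ 2) -
        (L.d - 1) * (L.ip (S.pm 3 1 y1) (S.pm 3 1 y1) / L.ip h h) - 8 * L.d * b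
      have h1 := T0.inner_L T0
      have h2 : (2 * 2 + Low.dim L - 2) / (2 * 2 + Low.dim L + 2) =
        (Low.dim L + 2) / (Low.dim L + 6) := by congr 1 <;> ring
      rw [e21, e22, ← hy1, ← hip, ← hip, ← hip, ← ha1, h2] at h1
      have hel : ell (Low.dim L) (L.d + 1) lam 2 0 b =
          (2 * 2 + (L.d + 1)) * a1 - (2 * 2 + (L.d + 1) - 4) * (b + 0) - 8 * ev (L.d + 1) 2 := by
        unfold ell; rw [← ha1]
      rw [hel] at h1
      unfold ev at h1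
      have hw := (div_mul_cancel₀ (L.ip (S.pp 3 1 y1) (S.pp 3 1 y1)) h0.ne')
      have hv := (div_mul_cancel₀ (L.ip (S.pm 3 1 y1) (S.pm 3 1 y1)) h0.ne')
      rw [← hw, ← hv] at h1
      apply mul_right_cancel₀ h0.ne'
      linear_combination -h1
    · show (Low.dim L + 10) * (L.ip (S.pp 5 3 y3) (S.pp 5 3 y3) / L.ip h h +
        L.ip (S.pm 5 3 y3) (S.pm 5 3 y3) / L.ip h h) =
        (lam + 2 * kap (Low.dim L) L.d 5 3) * (b3 * (a2 * a1)) + (Low.dim L + 6) *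
        (((Low.dim L + 4) / (Low.dim L + 8) * a2) ^ 2 * (b2 * a1) + b3 ^ 2 * (a2 * a1))
      have h1 := T2.inner_R T2
      have h2 : (2 * 4 + Low.dim L - 4) / (2 * 4 + Low.dim L) =
        (Low.dim L + 4) / (Low.dim L + 8) := by congr 1 <;> ring
      rw [e41, e42, ← hy3, ← hip, ← hip, ← hip, k2, h2] at h1
      rw [← add_div, ← mul_div_assoc, div_eq_iff h0.ne']
      unfold ev at h1; unfold kap
      linear_combination h1
    · show ((L.d + 9) * a3 - (L.d + 5) * (a2 + b3) - 32 * (L.d + 3)) * (b3 * (a2 * a1)) +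
        (L.d + 9) * ((Low.dim L + 6) / (Low.dim L + 10) * (a3 * (b3 * (a2 * a1)))) -
        (L.d + 5) * (L.ip (S.pp 5 3 y3) (S.pp 5 3 y3) / L.ip h h) =
        (L.d + 7) * (L.ip (S.pp 5 3 y3) (S.pp 5 3 y3) / L.ip h h + b3 ^ 2 * (a2 * a1)) -
        (L.d + 3) * (((Low.dim L + 4) / (Low.dim L + 8) * a2) ^ 2 * (b2 * a1) +
          L.ip (S.pm 5 3 y3) (S.pm 5 3 y3) / L.ip h h) -
        24 * (L.d + 2) * (b3 * (a2 * a1)) - a2 * (-(L.d + 7) * (b3 * (a2 * a1))) -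
        a2 * ((L.d + 3) * ((Low.dim L + 4) / (Low.dim L + 8) * a2 * (b2 * a1)))
      have h1 := T2.inner_L T2
      have h2 : (2 * 4 + Low.dim L - 2) / (2 * 4 + Low.dim L + 2) =
        (Low.dim L + 6) / (Low.dim L + 10) := by congr 1 <;> ring
      have h3 : (2 * 4 + Low.dim L - 4) / (2 * 4 + Low.dim L) =
        (Low.dim L + 4) / (Low.dim L + 8) := by congr 1 <;> ring
      rw [e41, e42, ← hy3, ← hip, ← hip, ← hip, k2, ← ha3, h2, h3] at h1
      have hel : ell (Low.dim L) (L.d + 1) lam 4 a2 b3 =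
          (2 * 4 + (L.d + 1)) * a3 - (2 * 4 + (L.d + 1) - 4) * (b3 + a2) -
            8 * ev (L.d + 1) 4 := by
        unfold ell; rw [← ha3]
      rw [hel] at h1
      unfold ev at h1
      have hw := (div_mul_cancel₀ (L.ip (S.pp 5 3 y3) (S.pp 5 3 y3)) h0.ne')
      have hv := (div_mul_cancel₀ (L.ip (S.pm 5 3 y3) (S.pm 5 3 y3)) h0.ne')
      rw [← hw, ← hv] at h1
      apply mul_right_cancel₀ h0.ne'
      linear_combination -h1
  · show x2 ∈ Low.Mod L {h}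
    rw [hx2, hx1, hS]
    exact pp_mem hd he.le (Low.stable_Mod L _) 3 3 (pp_mem hd he.le (Low.stable_Mod L _) 2 2
      (Low.subset_Mod L _ rfl))
  · show x3 ∈ Low.Mod L {h}
    rw [hx3, hx2, hx1, hS]
    exact pp_mem hd he.le (Low.stable_Mod L _) 4 4 (pp_mem hd he.le (Low.stable_Mod L _) 3 3
      (pp_mem hd he.le (Low.stable_Mod L _) 2 2 (Low.subset_Mod L _ rfl)))

end Vale.Agent.P207.H639
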