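import Vale.Agent.P207.H639.Gram6
import Vale.Agent.P207.H871.Region

/-!
# P207: positivity on the divergence free `(2,2)`-vectors, quaternionic and Cayley case
-/

noncomputable section

namespace Vale.Agent.P207.H639

open Vale.Agent.P207
open Vale.Agent.P207.H662 (Lad)
open Vale.Agent.P207.H468 (ofLad)

variable {W : Type*} [AddCommGroup W] [Module ℝ W] {L : Lad W}

/-- Cauchy-Schwarz -/
theorem cs (L : Lad W) (f g : W) : L.ip f g ^ 2 ≤ L.ip f f * L.ip g g := by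
  have h : ∀ t : ℝ, 0 ≤ L.ip g g * (t * t) + 2 * L.ip f g * t + L.ip f f := by
    intro t
    have h1 := L.nonneg (f + t • g)
    simp only [map_add, map_smul, LinearMap.add_apply, LinearMap.smul_apply, smul_eq_mul,
      L.symm g f] at h1
    linarith
  have h2 := discrim_le_zero h
  unfold discrim at h2
  linarith

/-- `|H_2 h|² ≥ 0` -/
theorem H2_nonneg (T : Tw L) (he : 0 < L.e) (hd : 0 < L.d) (h0 : 0 < L.ip T.x0 T.x0) :
    0 ≤ (L.d + 4) * T.a1 - (L.d + 2) * T.b1 - 8 * (L.d + 1) := by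
  have h1 := L.L2.pos 0 T.x0
  simp only [map_zero, LinearMap.zero_apply, mul_zero, zero_add, sub_zero] at h1
  rw [S_form L.L2 L.skew] at h1
  have o1 : L.ip T.x1 T.y1 = 0 :=
    orth he hd T.tx1 T.ty1 (Or.inr (by norm_num)) (by norm_num) (by norm_num)
  have o2 : L.ip T.y1 T.x1 = 0 := by rw [L.symm]; exact o1
  have n1 := T.n_x1 he hd
  have n2 := T.n_y1 he hd
  rw [Ty.d2 T.tx0, T.X0] at h1
  simp only [map_add, map_smul, Ty.d2 T.tx1, Ty.d2 T.ty1, T.X0, LinearMap.add_apply,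
    LinearMap.smul_apply, smul_eq_mul, o1, o2, n1, n2] at h1
  have h2 : 0 ≤ L.ip T.x0 T.x0 * ((L.d + 4) * T.a1 - (L.d + 2) * T.b1 - 8 * (L.d + 1)) := by
    linarith
  exact nonneg_of_mul_nonneg_right h2 h0

section H

variable {lam a4 b2 b4 c3 c5 w1 v1 w3 v3 m : ℝ} {T : Tw L}

theorem b_nonneg (T : Tw L) (he : 0 < L.e) (hd : 0 < L.d) (h0 : 0 < L.ip T.x0 T.x0) :
    0 ≤ T.b1 := by
  have h1 := L.nonneg T.y1
  rw [T.n_y1 he hd, mul_comm] at h1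
  exact nonneg_of_mul_nonneg_right h1 h0

theorem p_nonneg (h0 : 0 < L.ip T.x0 T.x0) (hN : Nr T a4 b2 b4 c3 c5 w1 v1 w3 v3) :
    0 ≤ b2 * T.a1 := by
  have h1 := L.nonneg T.y2
  rw [hN.y2, ← mul_assoc, mul_comm] at h1
  exact nonneg_of_mul_nonneg_right h1 h0

theorem cs_pq (h0 : 0 < L.ip T.x0 T.x0) (hN : Nr T a4 b2 b4 c3 c5 w1 v1 w3 v3) :
    (c3 * (T.a1 * T.b1)) ^ 2 ≤ (b2 * T.a1) * w1 := by
  have h1 := cs L T.y2 T.w1
  rw [hN.y2, hN.yw1, hN.w1] at h1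
  have h2 : 0 ≤ (L.ip T.x0 T.x0) ^ 2 * ((b2 * T.a1) * w1 - (c3 * (T.a1 * T.b1)) ^ 2) := by
    linarith
  have h3 := nonneg_of_mul_nonneg_right h2 (by positivity)
  linarith

/-- the region, quaternionic case -/
theorem region_H (hd : L.d = 3) (he : L.e = 4 * m - 4) (hm : 2 ≤ m)
    (h0 : 0 < L.ip T.x0 T.x0) (hN : Nr T a4 b2 b4 c3 c5 w1 v1 w3 v3)
    (hR : Rc (4 * m) 3 lam (T.a1 + T.b1 - T.b1) T.a2 T.a3 a4 T.b1 b2 T.b3 b4 T.c2 c3 c5 w1 v1
      w3 v3) : T.b1 + 6 ≤ T.a1 := by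
  have he0 : 0 < L.e := by rw [he]; linarith
  have hd0 : 0 < L.d := by rw [hd]; norm_num
  have e0 : (2 * m + 3 : ℝ) ≠ 0 := by intro h; linarith
  have h1 := H2_nonneg T he0 hd0 h0
  rw [hd] at h1
  refine H871.Region.region_H' (m := m) (a := T.a1) (b := T.b1) (p := b2 * T.a1) (q := w1)
    (g := c3 * (T.a1 * T.b1)) hm (b_nonneg T he0 hd0 h0) (by linarith) ?_ ?_ ?_
    (p_nonneg h0 hN) (cs_pq h0 hN)
  · rw [h_b2 hm hR]; field_simp; ring
  · rw [h_w1 hm hR]; field_simp; ring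
  · rw [h_c3 hm hR]; field_simp

end H

section HH

variable {lam b m : ℝ} {h : W}

/-- the first positivity statement (helper728's form), quaternionic case -/
theorem S2_H (hd : L.d = 3) (he : L.e = 4 * m - 4) (hm : 2 ≤ m) (hh : Low.TT L h)
    (hlam : L.Lam h = lam • h) (hd2 : 2 ≤ L.d) (he2 : 0 ≤ L.e)
    (hb : (ofLad L hd2 he2).mp 3 1 ((ofLad L hd2 he2).pm 2 2 h) = -b • h)
    (h0 : 0 < L.ip h h) :
    ∃ F ∈ Low.Mod L {h}, ∃ G ∈ Low.Mod L {h}, 0 < Low.P1 L h F G := by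
  have he0 : 0 < L.e := by rw [he]; linarith
  have hd0 : 0 < L.d := by rw [hd]; norm_num
  obtain ⟨T, a4, b2, b4, c3, c5, w1, v1, w3, v3, hx, hb1, hN, hR, m2, m3⟩ :=
    exists_tower hd2 he0 hh hlam hb h0
  have hdim : Low.dim L = 4 * m := by unfold Low.dim; rw [he, hd]; ring
  have hR' : Rc (4 * m) 3 lam (T.a1 + T.b1 - T.b1) T.a2 T.a3 a4 T.b1 b2 T.b3 b4 T.c2 c3 c5 w1
      v1 w3 v3 := by
    rw [add_sub_cancel_right, ← hdim, ← hd]; exact hR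
  rw [← hx] at h0
  have hreg := region_H hd he hm h0 hN hR'
  have hbn := b_nonneg T he0 hd0 h0
  have hc := cert_H hm hR' hbn (by linarith)
  have hq := qf_eq he0 hd0 hN (1 / (2 * (T.a1 + T.b1))) (-7 / (4 * (T.a1 + T.b1)))
    (-3 / (8 * (T.a1 + T.b1) ^ 2)) (7 / (100 * (T.a1 + T.b1) ^ 2))
  rw [add_sub_cancel_right] at hc
  have hM := Low.stable_Mod L {h}
  have m0 : T.x0 ∈ Low.Mod L {h} := by rw [hx]; exact Low.subset_Mod L _ rfl
  refine ⟨_, (Low.Mod L {h}).add_mem (Submodule.smul_mem _ (1 / (2 * (T.a1 + T.b1)))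
      (hM.X _ m0)) (Submodule.smul_mem _ (7 / (100 * (T.a1 + T.b1) ^ 2)) m3),
    _, (Low.Mod L {h}).add_mem (Submodule.smul_mem _ (-7 / (4 * (T.a1 + T.b1))) m0)
      (Submodule.smul_mem _ (-3 / (8 * (T.a1 + T.b1) ^ 2)) m2), ?_⟩
  unfold Low.P1
  have hD : L.L1.Δ T.x0 = (2 * L.e) • T.x0 := by
    rw [Ty.d1 T.tx0]; congr 1; ring
  rw [← hx, hq, hD, map_smul, LinearMap.smul_apply, smul_eq_mul, he, hd]
  have h3 : 0 < 4 * m - 4 := by linarith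
  nlinarith [mul_pos (sub_pos.2 hc) h0, mul_pos h3 h0]

/-- the lower bound for the Casimir eigenvalue -/
theorem lam_H (hd : L.d = 3) (he : L.e = 4 * m - 4) (hm : 2 ≤ m) (hh : Low.TT L h)
    (hlam : L.Lam h = lam • h) (hd2 : 2 ≤ L.d) (he2 : 0 ≤ L.e)
    (hb : (ofLad L hd2 he2).mp 3 1 ((ofLad L hd2 he2).pm 2 2 h) = -b • h)
    (h0 : 0 < L.ip h h) : 8 * m - 24 ≤ lam := by
  have he0 : 0 < L.e := by rw [he]; linarith
  have hd0 : 0 < L.d := by rw [hd]; norm_num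
  obtain ⟨T, a4, b2, b4, c3, c5, w1, v1, w3, v3, hx, hb1, hN, hR, m2, m3⟩ :=
    exists_tower hd2 he0 hh hlam hb h0
  have hdim : Low.dim L = 4 * m := by unfold Low.dim; rw [he, hd]; ring
  have hR' : Rc (4 * m) 3 lam (T.a1 + T.b1 - T.b1) T.a2 T.a3 a4 T.b1 b2 T.b3 b4 T.c2 c3 c5 w1
      v1 w3 v3 := by
    rw [add_sub_cancel_right, ← hdim, ← hd]; exact hR
  rw [← hx] at h0
  have hreg := region_H hd he hm h0 hN hR'
  have hbn := b_nonneg T he0 hd0 h0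
  have hl := h_lam hm hR'
  rw [hl]
  nlinarith

end HH

end Vale.Agent.P207.H639
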