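import Vale.Agent.P207.H639.Gram7

/-!
# P207: positivity on the divergence free `(2,2)`-vectors, Cayley case
-/

noncomputable section

namespace Vale.Agent.P207.H639

open Vale.Agent.P207
open Vale.Agent.P207.H662 (Lad)
open Vale.Agent.P207.H468 (ofLad)

section C

variable {s b lam a2 a3 a4 b2 b3 b4 c2 c3 c5 w1 v1 w3 v3 : ℝ}

theorem hC_lam (h : Rc 16 7 lam (s - b) a2 a3 a4 b b2 b3 b4 c2 c3 c5 w1 v1 w3 v3) :
    lam = 20 * s - 160 := by
  have h1 := h.r1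
  unfold kap at h1
  linear_combination -h1

theorem hC_c3 (h : Rc 16 7 lam (s - b) a2 a3 a4 b b2 b3 b4 c2 c3 c5 w1 v1 w3 v3) :
    c3 = 9 / 11 := by
  have h1 := h.hc3
  linear_combination (1 / 22) * h1

theorem hC_sum (h : Rc 16 7 lam (s - b) a2 a3 a4 b b2 b3 b4 c2 c3 c5 w1 v1 w3 v3) :
    a2 + b2 = (52 / 11) - (9 / 11) * b + (19 / 11) * s := by
  have h1 := h.r2
  rw [hC_lam h] at h1
  unfold kap at h1
  linear_combination (1 / 22) * h1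

theorem hC_a2 (h : Rc 16 7 lam (s - b) a2 a3 a4 b b2 b3 b4 c2 c3 c5 w1 v1 w3 v3) :
    a2 = (16 / 3) - (50 / 33) * b + (5 / 3) * s := by
  have h1 := hC_sum h
  have h2 := h.l2
  rw [hC_c3 h] at h2
  linear_combination (44 / 72) * h1 + (1 / 72) * h2

theorem hC_b2 (h : Rc 16 7 lam (s - b) a2 a3 a4 b b2 b3 b4 c2 c3 c5 w1 v1 w3 v3) :
    b2 = -(20 / 33) + (23 / 33) * b + (2 / 33) * s := by
  have h1 := hC_sum h
  have h2 := hC_a2 h
  linear_combination h1 - h2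

theorem hC_sw (h : Rc 16 7 lam (s - b) a2 a3 a4 b b2 b3 b4 c2 c3 c5 w1 v1 w3 v3) :
    w1 + v1 = -(8 / 11) * b + (10 / 11) * b * s + (9 / 11) * b ^ 2 := by
  have h1 := h.wv1
  rw [hC_lam h] at h1
  unfold kap at h1
  linear_combination (1 / 22) * h1

theorem hC_w1 (h : Rc 16 7 lam (s - b) a2 a3 a4 b b2 b3 b4 c2 c3 c5 w1 v1 w3 v3) :
    w1 = -(35 / 11) * b + (25 / 22) * b * s - (16 / 11) * b ^ 2 := by
  have h1 := hC_sw h
  have h2 := h.ww1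
  rw [hC_c3 h] at h2
  linear_combination (6 / 24) * h1 - (1 / 24) * h2

theorem hC_v1 (h : Rc 16 7 lam (s - b) a2 a3 a4 b b2 b3 b4 c2 c3 c5 w1 v1 w3 v3) :
    v1 = (27 / 11) * b - (5 / 22) * b * s + (25 / 11) * b ^ 2 := by
  have h1 := hC_sw h
  have h2 := hC_w1 h
  linear_combination h1 - h2

/-- helper871's certificate for the Cayley plane -/
theorem cert_C (h : Rc 16 7 lam (s - b) a2 a3 a4 b b2 b3 b4 c2 c3 c5 w1 v1 w3 v3)
    (hb : 0 ≤ b) (hs : 10 + 2 * b ≤ s) :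
    4 / 5 + 8 < qT 8 7 (s - b) a2 a3 a4 b b2 b3 b4 c2 c3 c5 w1 v1 w3 v3 (2 / (5 * s))
      (-6 / (5 * s)) 0 0 := by
  have hs0 : 0 < s := by linarith
  have e3 : s ≠ 0 := hs0.ne'
  have key : qT 8 7 (s - b) a2 a3 a4 b b2 b3 b4 c2 c3 c5 w1 v1 w3 v3 (2 / (5 * s))
      (-6 / (5 * s)) 0 0 - 8 - 4 / 5 =
      (16 + (22464 / 55) * b + (2928 / 55) * (s - (10 + 2 * b))
        + (3936 / 55) * b ^ 2 + (2536 / 55) * ((s - (10 + 2 * b)) * b)
        + (284 / 55) * (s - (10 + 2 * b)) ^ 2) / s ^ 2 := by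
    unfold qT
    rw [hC_w1 h, hC_v1 h, hC_a2 h, hC_b2 h, hC_c3 h]
    field_simp
    ring
  have ht : 0 ≤ s - (10 + 2 * b) := by linarith
  have h3 : 0 < (16 + (22464 / 55) * b + (2928 / 55) * (s - (10 + 2 * b))
        + (3936 / 55) * b ^ 2 + (2536 / 55) * ((s - (10 + 2 * b)) * b)
        + (284 / 55) * (s - (10 + 2 * b)) ^ 2) / s ^ 2 := by
    apply div_pos _ (by positivity)
    positivity
  linarith

end C

variable {W : Type*} [AddCommGroup W] [Module ℝ W] {L : Lad W}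

/-- the region, Cayley case -/
theorem region_C {lam a4 b2 b4 c3 c5 w1 v1 w3 v3 : ℝ} {T : Tw L} (hd : L.d = 7) (he : L.e = 8)
    (h0 : 0 < L.ip T.x0 T.x0) (hN : Nr T a4 b2 b4 c3 c5 w1 v1 w3 v3)
    (hR : Rc 16 7 lam (T.a1 + T.b1 - T.b1) T.a2 T.a3 a4 T.b1 b2 T.b3 b4 T.c2 c3 c5 w1 v1
      w3 v3) : T.b1 + 10 ≤ T.a1 := by
  have he0 : 0 < L.e := by rw [he]; norm_num
  have hd0 : 0 < L.d := by rw [hd]; norm_num
  have h1 := H2_nonneg T he0 hd0 h0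
  rw [hd] at h1
  refine H871.Region.region_C' (a := T.a1) (b := T.b1) (p := b2 * T.a1) (q := w1)
    (g := c3 * (T.a1 * T.b1)) (b_nonneg T he0 hd0 h0) (by linarith) ?_ ?_ ?_
    (p_nonneg h0 hN) (cs_pq h0 hN)
  · rw [hC_b2 hR]; ring
  · rw [hC_w1 hR]; ring
  · rw [hC_c3 hR]; ring

variable {lam b : ℝ} {h : W}

/-- the first positivity statement (helper728's form), Cayley case -/
theorem S2_C (hd : L.d = 7) (he : L.e = 8) (hh : Low.TT L h)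
    (hlam : L.Lam h = lam • h) (hd2 : 2 ≤ L.d) (he2 : 0 ≤ L.e)
    (hb : (ofLad L hd2 he2).mp 3 1 ((ofLad L hd2 he2).pm 2 2 h) = -b • h)
    (h0 : 0 < L.ip h h) :
    ∃ F ∈ Low.Mod L {h}, ∃ G ∈ Low.Mod L {h}, 0 < Low.P1 L h F G := by
  have he0 : 0 < L.e := by rw [he]; norm_num
  have hd0 : 0 < L.d := by rw [hd]; norm_num
  obtain ⟨T, a4, b2, b4, c3, c5, w1, v1, w3, v3, hx, hb1, hN, hR, m2, m3⟩ :=
    exists_tower hd2 he0 hh hlam hb h0
  have hdim : Low.dim L = 16 := by unfold Low.dim; rw [he, hd]; norm_num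
  have hR' : Rc 16 7 lam (T.a1 + T.b1 - T.b1) T.a2 T.a3 a4 T.b1 b2 T.b3 b4 T.c2 c3 c5 w1
      v1 w3 v3 := by
    rw [add_sub_cancel_right, ← hdim, ← hd]; exact hR
  rw [← hx] at h0
  have hreg := region_C hd he h0 hN hR'
  have hbn := b_nonneg T he0 hd0 h0
  have hc := cert_C hR' hbn (by linarith)
  have hq := qf_eq he0 hd0 hN (2 / (5 * (T.a1 + T.b1))) (-6 / (5 * (T.a1 + T.b1))) 0 0
  rw [add_sub_cancel_right] at hc
  have hM := Low.stable_Mod L {h}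
  have m0 : T.x0 ∈ Low.Mod L {h} := by rw [hx]; exact Low.subset_Mod L _ rfl
  refine ⟨_, (Low.Mod L {h}).add_mem (Submodule.smul_mem _ (2 / (5 * (T.a1 + T.b1)))
      (hM.X _ m0)) (Submodule.smul_mem _ 0 m3),
    _, (Low.Mod L {h}).add_mem (Submodule.smul_mem _ (-6 / (5 * (T.a1 + T.b1))) m0)
      (Submodule.smul_mem _ 0 m2), ?_⟩
  unfold Low.P1
  have hD : L.L1.Δ T.x0 = (2 * L.e) • T.x0 := by
    rw [Ty.d1 T.tx0]; congr 1; ring
  rw [← hx, hq, hD, map_smul, LinearMap.smul_apply, smul_eq_mul, he, hd]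
  nlinarith [mul_pos (sub_pos.2 hc) h0]

/-- the lower bound for the Casimir eigenvalue -/
theorem lam_C (hd : L.d = 7) (he : L.e = 8) (hh : Low.TT L h)
    (hlam : L.Lam h = lam • h) (hd2 : 2 ≤ L.d) (he2 : 0 ≤ L.e)
    (hb : (ofLad L hd2 he2).mp 3 1 ((ofLad L hd2 he2).pm 2 2 h) = -b • h)
    (h0 : 0 < L.ip h h) : 40 ≤ lam := by
  have he0 : 0 < L.e := by rw [he]; norm_num
  have hd0 : 0 < L.d := by rw [hd]; norm_num
  obtain ⟨T, a4, b2, b4, c3, c5, w1, v1, w3, v3, hx, hb1, hN, hR, m2, m3⟩ :=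
    exists_tower hd2 he0 hh hlam hb h0
  have hdim : Low.dim L = 16 := by unfold Low.dim; rw [he, hd]; norm_num
  have hR' : Rc 16 7 lam (T.a1 + T.b1 - T.b1) T.a2 T.a3 a4 T.b1 b2 T.b3 b4 T.c2 c3 c5 w1
      v1 w3 v3 := by
    rw [add_sub_cancel_right, ← hdim, ← hd]; exact hR
  rw [← hx] at h0
  have hreg := region_C hd he h0 hN hR'
  have hbn := b_nonneg T he0 hd0 h0
  have hl := hC_lam hR'
  rw [hl]
  linarith

end Vale.Agent.P207.H639
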